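import Mathlib

/-! One-variable estimates: Abel summation on a grid, and the integral of `log (s + l)`. -/

set_option autoImplicit false
open Filter Topology MeasureTheory

namespace Crest.Agent.R341

/-- clamp to `[A, B]` -/
def cl (A B t : ℝ) : ℝ := max A (min t B)

lemma abel (w Γ : ℝ → ℝ) {A B δ : ℝ} (hA : 0 ≤ A) (hAB : A ≤ B) (hδ : 0 < δ) (σ : ℕ → ℝ) (n : ℕ)
    (hpos : ∀ j, 0 < σ j) (hσ : ∀ j < n, σ (j + 1) ≤ σ j ∧ σ j ≤ σ (j + 1) + δ)
    (hw0 : ∀ t, 0 < t → 0 ≤ w t) (hanti : ∀ s t, 0 < s → s ≤ t → w t ≤ w s)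
    (hΓ : ∀ s t, 0 < s → s ≤ t → Γ t - Γ s ≤ w s * (t - s)) :
    Γ (cl A B (σ 0) + δ) - Γ (cl A B (σ n) + δ) - w (σ 0) * (B - A) ≤
      ∑ j ∈ Finset.range n, (w (σ (j + 1)) - w (σ j)) * (cl A B (σ (j + 1)) - A) := by
  have hclA : ∀ t, A ≤ cl A B t := fun t => le_max_left _ _
  have hclB : ∀ t, cl A B t ≤ B := fun t => max_le hAB (min_le_right _ _)
  have key : ∀ k ≤ n, w (σ k) * (cl A B (σ k) - A) - w (σ 0) * (cl A B (σ 0) - A) +
      (Γ (cl A B (σ 0) + δ) - Γ (cl A B (σ k) + δ)) ≤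
      ∑ j ∈ Finset.range k, (w (σ (j + 1)) - w (σ j)) * (cl A B (σ (j + 1)) - A) := by
    intro k hk
    induction k with
    | zero => simp
    | succ k ih =>
      have ih := ih (by omega)
      obtain ⟨h1, h2⟩ := hσ k (by omega)
      rw [Finset.sum_range_succ]
      have hmono : cl A B (σ (k + 1)) ≤ cl A B (σ k) :=
        max_le_max le_rfl (min_le_min h1 le_rfl)
      have h3 : Γ (cl A B (σ k) + δ) - Γ (cl A B (σ (k + 1)) + δ) ≤
          w (σ k) * (cl A B (σ k) - cl A B (σ (k + 1))) := by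
        by_cases hB : σ (k + 1) ≤ B
        · have h4 := hΓ (cl A B (σ (k + 1)) + δ) (cl A B (σ k) + δ)
            (by linarith [hclA (σ (k + 1))]) (by linarith)
          have h5 : σ (k + 1) ≤ cl A B (σ (k + 1)) := by
            unfold cl; rw [min_eq_left hB]; exact le_max_right _ _
          have h6 := hanti (σ k) (cl A B (σ (k + 1)) + δ) (hpos k) (by linarith)
          have h7 : cl A B (σ k) + δ - (cl A B (σ (k + 1)) + δ) =
            cl A B (σ k) - cl A B (σ (k + 1)) := by ring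
          rw [h7] at h4
          exact h4.trans (mul_le_mul_of_nonneg_right h6 (by linarith))
        · push Not at hB
          have e1 : cl A B (σ (k + 1)) = B := by
            unfold cl; rw [min_eq_right hB.le, max_eq_right hAB]
          have e2 : cl A B (σ k) = B := by
            unfold cl; rw [min_eq_right (hB.le.trans h1), max_eq_right hAB]
          rw [e1, e2]; simp
      nlinarith
  have h1 := key n le_rfl
  have h2 : 0 ≤ w (σ n) * (cl A B (σ n) - A) :=
    mul_nonneg (hw0 _ (hpos n)) (by linarith [hclA (σ n)])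
  have h3 : w (σ 0) * (cl A B (σ 0) - A) ≤ w (σ 0) * (B - A) :=
    mul_le_mul_of_nonneg_left (by linarith [hclB (σ 0)]) (hw0 _ (hpos 0))
  linarith

/-- the uniform grid -/
noncomputable def grid (M j : ℕ) : ℝ := ((((M + 1) ^ 2 - j : ℕ) : ℝ) + 1) / (M + 1)

lemma grid_pos (M j : ℕ) : 0 < grid M j := by unfold grid; positivity

lemma grid_step (M j : ℕ) (hj : j < (M + 1) ^ 2) :
    grid M j = grid M (j + 1) + 1 / ((M : ℝ) + 1) := by
  unfold grid
  have : (M + 1) ^ 2 - j = (M + 1) ^ 2 - (j + 1) + 1 := by omega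
  rw [this]; push_cast; ring

lemma grid_anti (M j : ℕ) (hj : j < (M + 1) ^ 2) : grid M (j + 1) ≤ grid M j := by
  rw [grid_step M j hj]
  have : (0 : ℝ) < 1 / ((M : ℝ) + 1) := by positivity
  linarith

lemma grid_last (M : ℕ) : grid M ((M + 1) ^ 2) = 1 / ((M : ℝ) + 1) := by
  unfold grid; simp

lemma grid_zero_tendsto : Tendsto (fun M => grid M 0) atTop atTop := by
  refine tendsto_atTop_mono (fun M => ?_) tendsto_natCast_atTop_atTop
  unfold grid
  rw [le_div_iff₀ (by positivity)]
  simp only [Nat.sub_zero]; push_cast; nlinarith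

lemma abel_lim (w Γ : ℝ → ℝ) {A B : ℝ} (hA : 0 ≤ A) (hAB : A ≤ B)
    (hw0 : ∀ t, 0 < t → 0 ≤ w t) (hanti : ∀ s t, 0 < s → s ≤ t → w t ≤ w s)
    (hΓ : ∀ s t, 0 < s → s ≤ t → Γ t - Γ s ≤ w s * (t - s))
    (hcA : ContinuousAt Γ A) (hcB : ContinuousAt Γ B) (hw : Tendsto w atTop (𝓝 0)) :
    ∃ lb : ℕ → ℝ, Tendsto lb atTop (𝓝 (Γ B - Γ A)) ∧ ∀ M, lb M ≤
      ∑ j ∈ Finset.range ((M + 1) ^ 2),
        (w (grid M (j + 1)) - w (grid M j)) * (cl A B (grid M (j + 1)) - A) := by
  refine ⟨fun M => Γ (cl A B (grid M 0) + 1 / ((M : ℝ) + 1)) -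
    Γ (cl A B (grid M ((M + 1) ^ 2)) + 1 / ((M : ℝ) + 1)) - w (grid M 0) * (B - A), ?_,
    fun M => abel w Γ hA hAB (by positivity) (grid M) _ (grid_pos M)
      (fun j hj => ⟨grid_anti M j hj, (grid_step M j hj).le⟩) hw0 hanti hΓ⟩
  have hδ : Tendsto (fun M : ℕ => 1 / ((M : ℝ) + 1)) atTop (𝓝 0) :=
    tendsto_one_div_add_atTop_nhds_zero_nat
  have h1 : Tendsto (fun M => cl A B (grid M 0)) atTop (𝓝 B) := by
    refine tendsto_const_nhds.congr' ?_
    filter_upwards [grid_zero_tendsto.eventually_ge_atTop B] with M hM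
    unfold cl; rw [min_eq_right hM, max_eq_right hAB]
  have h2 : Tendsto (fun M => cl A B (grid M ((M + 1) ^ 2))) atTop (𝓝 A) := by
    simp only [grid_last]
    have hc : Continuous (cl A B) := by unfold cl; fun_prop
    have := (hc.tendsto 0).comp hδ
    have e : cl A B 0 = A := by
      unfold cl; rw [min_eq_left (hA.trans hAB), max_eq_left hA]
    rwa [e] at this
  have h3 := hcB.tendsto.comp (by simpa using h1.add hδ :
    Tendsto (fun M => cl A B (grid M 0) + 1 / ((M : ℝ) + 1)) atTop (𝓝 B))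
  have h4 := hcA.tendsto.comp (by simpa using h2.add hδ :
    Tendsto (fun M => cl A B (grid M ((M + 1) ^ 2)) + 1 / ((M : ℝ) + 1)) atTop (𝓝 A))
  have h5 := (hw.comp grid_zero_tendsto).mul_const (B - A)
  simpa using (h3.sub h4).sub h5

/-- value of `∫₀^S log (s + l) ds` -/
noncomputable def J (S l : ℝ) : ℝ := (S + l) * Real.log (S + l) - S + Real.negMulLog l

lemma integral_log_add (S l : ℝ) : ∫ s in (0 : ℝ)..S, Real.log (s + l) = J S l := by
  rw [intervalIntegral.integral_comp_add_right (fun s => Real.log s) l, integral_log]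
  simp [J, Real.negMulLog]; ring

lemma intInt_log_add (S l : ℝ) : IntervalIntegrable (fun s => Real.log (s + l)) volume 0 S := by
  have := (intervalIntegral.intervalIntegrable_log' (a := 0 + l) (b := S + l)).comp_add_right l
  simpa using this

lemma mul_log_bounds {S l : ℝ} (hS : 0 < S) (hl : 0 ≤ l) :
    (S + l) * Real.log S + l ≤ (S + l) * Real.log (S + l) ∧
      (S + l) * Real.log (S + l) ≤ (S + l) * Real.log S + l + l ^ 2 / S := by
  have hSl : 0 < S + l := by positivity
  have e : Real.log (S + l) = Real.log S + Real.log ((S + l) / S) := by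
    rw [Real.log_div hSl.ne' hS.ne']; ring
  have h1 := Real.one_sub_inv_le_log_of_pos (x := (S + l) / S) (by positivity)
  have h2 := Real.log_le_sub_one_of_pos (x := (S + l) / S) (by positivity)
  have e1 : (S + l) * (1 - ((S + l) / S)⁻¹) = l := by field_simp; ring
  have e2 : (S + l) * ((S + l) / S - 1) = l + l ^ 2 / S := by field_simp; ring
  have h3 := mul_le_mul_of_nonneg_left h1 hSl.le
  have h4 := mul_le_mul_of_nonneg_left h2 hSl.le
  rw [e, mul_add]
  constructor <;> linarith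

lemma count_anti {B : Type*} [Fintype B] (μ : B → ℝ) :
    Antitone fun s : ℝ => ((Finset.univ.filter fun k => s ≤ μ k).card : ℝ) := by
  intro s t hst
  simp only [Nat.cast_le]
  exact Finset.card_le_card fun k hk => by
    simp only [Finset.mem_filter, Finset.mem_univ, true_and] at hk ⊢; exact hst.trans hk

lemma integral_count {B : Type*} [Fintype B] {μ : B → ℝ} {S : ℝ} (hS : 0 ≤ S)
    (hμ : ∀ k, μ k ≤ S) :
    ∑ k, μ k ≤ ∫ s in (0 : ℝ)..S, ((Finset.univ.filter fun k => s ≤ μ k).card : ℝ) := by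
  have e : ∀ s : ℝ, ((Finset.univ.filter fun k => s ≤ μ k).card : ℝ) =
      ∑ k, Set.indicator {s | s ≤ μ k} (fun _ => (1 : ℝ)) s := by
    intro s
    rw [Finset.card_filter]; push_cast
    refine Finset.sum_congr rfl fun k _ => ?_
    simp [Set.indicator_apply]
  simp only [e]
  have hint : ∀ k, IntervalIntegrable (Set.indicator {s | s ≤ μ k} (fun _ => (1 : ℝ))) volume 0 S := by
    intro k
    refine Antitone.intervalIntegrable ?_
    intro s t hst
    simp only [Set.indicator_apply, Set.mem_setOf_eq]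
    split_ifs with h1 h2
    · exact le_rfl
    · exact absurd (hst.trans h1) h2
    · exact zero_le_one
    · exact le_rfl
  rw [intervalIntegral.integral_finset_sum (fun k _ => hint k)]
  refine Finset.sum_le_sum fun k _ => ?_
  by_cases hk : 0 ≤ μ k
  · rw [intervalIntegral.integral_indicator ⟨hk, hμ k⟩]; simp
  · refine le_trans (not_le.1 hk).le (intervalIntegral.integral_nonneg hS fun s _ => ?_)
    exact Set.indicator_nonneg (fun _ _ => zero_le_one) _

end Crest.Agent.R341
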