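import Crest.Agent.R341.Abel

/-! The scalar analysis behind the key entropy inequality. -/

set_option autoImplicit false
open Filter Topology

namespace Crest.Agent.R341

variable {B : Type*} [Fintype B]

noncomputable def th (x u t : ℝ) : ℝ := x / (t + u)

noncomputable def Tf (ξ : B → ℝ) (u S t : ℝ) : ℝ := ∑ k, min ((t + u) * ξ k / ∑ i, ξ i) S - u

noncomputable def ell (a a' b : ℝ) : ℝ := Real.log ((1 + a' + b) / (1 + a + b))

noncomputable def Lc (ξ : B → ℝ) (u S S' : ℝ) (k : B) : ℝ := max S' (S * (∑ i, ξ i) / ξ k - u)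

lemma th_nonneg {x u t : ℝ} (hx : 0 ≤ x) (hu : 0 ≤ u) (ht : 0 < t) : 0 ≤ th x u t := by
  unfold th; positivity

lemma th_anti {x u s t : ℝ} (hx : 0 ≤ x) (hu : 0 ≤ u) (hs : 0 < s) (hst : s ≤ t) :
    th x u t ≤ th x u s := by
  unfold th; gcongr

lemma th_le {x u s t : ℝ} (hx : 0 ≤ x) (hu : 0 ≤ u) (hs : 0 < s) (hst : s ≤ t) :
    th x u t ≤ x / s := by
  unfold th; gcongr; linarith

lemma ell_nonneg {a a' b : ℝ} (ha : 0 ≤ a) (haa : a ≤ a') (hb : 0 ≤ b) : 0 ≤ ell a a' b := by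
  refine Real.log_nonneg ?_
  rw [one_le_div (by positivity)]; linarith

lemma arm {ξ : B → ℝ} (hξ : ∀ k, 0 ≤ ξ k) {u S S' t t' b κ : ℝ} (hu : 0 ≤ u) (hS' : 0 < S')
    (hS : S' + u ≤ S) (ht' : 0 < t') (htt : t' ≤ t) (hb : 0 ≤ b)
    (hκ : S' ≤ t' → κ * (1 + th (∑ i, ξ i) u t' + b) ≤ 1) :
    ell (th (∑ i, ξ i) u t) (th (∑ i, ξ i) u t') b * min t' S' +
      κ * ∑ k, ξ k * ((1 / (t' + u) - 1 / (t + u)) * (cl S' (Lc ξ u S S' k) t' - S')) ≤
      ell (th (∑ i, ξ i) u t) (th (∑ i, ξ i) u t') b * Tf ξ u S t' := by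
  have hx0 : 0 ≤ ∑ i, ξ i := Finset.sum_nonneg fun i _ => hξ i
  have hle : ∀ k, ξ k ≤ ∑ i, ξ i := fun k =>
    Finset.single_le_sum (fun j _ => hξ j) (Finset.mem_univ k)
  rcases hx0.eq_or_lt with hx | hx
  · have h0 : ∀ k, ξ k = 0 := fun k => le_antisymm (hx ▸ hle k) (hξ k)
    have : ell (th (∑ i, ξ i) u t) (th (∑ i, ξ i) u t') b = 0 := by
      rw [← hx]; unfold ell th
      rw [zero_div, zero_div, div_self (by positivity), Real.log_one]
    rw [this]; simp [h0]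
  unfold Tf Lc
  set x := ∑ i, ξ i with hxdef
  have ha := th_nonneg hx0 hu (ht'.trans_le htt)
  have haa := th_anti hx0 hu ht' htt
  have hl := ell_nonneg ha haa hb
  set ℓ := ell (th x u t) (th x u t') b with hℓ
  have hT : min t' S' + ∑ k, ξ k / x * (cl S' (max S' (S * x / ξ k - u)) t' - S') ≤
      ∑ k, min ((t' + u) * ξ k / x) S - u := by
    have e1 : ∑ k, ξ k / x = 1 := by rw [← Finset.sum_div, ← hxdef, div_self hx.ne']
    have e2 : min t' S' + ∑ k, ξ k / x * (cl S' (max S' (S * x / ξ k - u)) t' - S') + u =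
        ∑ k, ξ k / x * (min t' S' + (cl S' (max S' (S * x / ξ k - u)) t' - S') + u) := by
      simp only [mul_add, Finset.sum_add_distrib, ← Finset.sum_mul, e1, one_mul]
    rw [le_sub_iff_add_le, e2]
    refine Finset.sum_le_sum fun k _ => ?_
    rcases (hξ k).eq_or_lt with hk | hk
    · rw [← hk]; simp; linarith
    · have hL : S' ≤ S * x / ξ k - u := by
        have : S ≤ S * x / ξ k := by
          rw [le_div_iff₀ hk]; exact mul_le_mul_of_nonneg_left (hle k) (by linarith)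
        linarith
      rw [max_eq_right hL]
      have e3 : min t' S' + (cl S' (S * x / ξ k - u) t' - S') = min t' (S * x / ξ k - u) := by
        unfold cl
        rcases le_total t' S' with h | h
        · rw [min_eq_left h, min_eq_left (h.trans hL), max_eq_left h]; ring
        · rw [min_eq_right h, max_eq_right (le_min h hL)]; ring
      rw [e3]
      have hp : 0 ≤ ξ k / x := by positivity
      refine le_min ?_ ?_
      · calc ξ k / x * (min t' (S * x / ξ k - u) + u) ≤ ξ k / x * (t' + u) := by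
              gcongr; exact min_le_left _ _
          _ = _ := by ring
      · calc ξ k / x * (min t' (S * x / ξ k - u) + u) ≤ ξ k / x * ((S * x / ξ k - u) + u) := by
              gcongr; exact min_le_right _ _
          _ = _ := by field_simp; ring
  refine le_trans ?_ (mul_le_mul_of_nonneg_left hT hl)
  rw [mul_add, Finset.mul_sum _ _ κ, Finset.mul_sum _ _ ℓ]
  refine add_le_add le_rfl (Finset.sum_le_sum fun k _ => ?_)
  rcases lt_or_ge t' S' with h | h
  · have : cl S' (max S' (S * x / ξ k - u)) t' = S' := by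
      unfold cl; exact max_eq_left ((min_le_left _ _).trans h.le)
    rw [this]; simp
  · have hc : 0 ≤ cl S' (max S' (S * x / ξ k - u)) t' - S' := by
      unfold cl; linarith [le_max_left S' (min t' (max S' (S * x / ξ k - u)))]
    have h1 : κ * (x * (1 / (t' + u) - 1 / (t + u))) ≤ ℓ := by
      have e : x * (1 / (t' + u) - 1 / (t + u)) = th x u t' - th x u t := by unfold th; ring
      rw [e]
      have hpos : 0 < 1 + th x u t' + b := by linarith
      have h2 := Real.one_sub_inv_le_log_of_pos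
        (x := (1 + th x u t' + b) / (1 + th x u t + b)) (by positivity)
      have e2 : 1 - ((1 + th x u t' + b) / (1 + th x u t + b))⁻¹ =
          (th x u t' - th x u t) / (1 + th x u t' + b) := by field_simp; ring
      rw [e2] at h2
      refine le_trans ?_ h2
      rw [le_div_iff₀ hpos]
      have := mul_le_mul_of_nonneg_right (hκ h) (sub_nonneg.2 haa)
      linarith
    have h3 : 0 ≤ ξ k / x * (cl S' (max S' (S * x / ξ k - u)) t' - S') := by
      have := hξ k; positivity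
    refine le_trans (le_of_eq ?_) (mul_le_mul_of_nonneg_right h1 h3)
    field_simp

lemma arm_lim {ξ : B → ℝ} (hξ : ∀ k, 0 ≤ ξ k) {u S S' : ℝ} (hu : 0 ≤ u) (hS' : 0 < S')
    (hS : S' + u ≤ S) :
    ∃ (lb : ℕ → ℝ) (v : ℝ), Tendsto lb atTop (𝓝 v) ∧
      ∑ k, Real.negMulLog (ξ k) - Real.negMulLog (∑ i, ξ i) ≤ v ∧ ∀ M, lb M ≤
      ∑ j ∈ Finset.range ((M + 1) ^ 2), ∑ k, ξ k *
        ((1 / (grid M (j + 1) + u) - 1 / (grid M j + u)) *
          (cl S' (Lc ξ u S S' k) (grid M (j + 1)) - S')) := by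
  have h : ∀ k, ∃ lb : ℕ → ℝ, Tendsto lb atTop
      (𝓝 (Real.log (Lc ξ u S S' k + u) - Real.log (S' + u))) ∧ ∀ M, lb M ≤
      ∑ j ∈ Finset.range ((M + 1) ^ 2), (1 / (grid M (j + 1) + u) - 1 / (grid M j + u)) *
          (cl S' (Lc ξ u S S' k) (grid M (j + 1)) - S') := by
    intro k
    have hL : S' ≤ Lc ξ u S S' k := le_max_left _ _
    refine abel_lim (fun t => 1 / (t + u)) (fun t => Real.log (t + u)) hS'.le hL
      (fun t ht => by positivity) (fun s t hs hst => by gcongr) (fun s t hs hst => ?_) ?_ ?_ ?_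
    · rw [← Real.log_div (by linarith) (by linarith)]
      refine (Real.log_le_sub_one_of_pos (div_pos (by linarith) (by linarith))).trans (le_of_eq ?_)
      field_simp; ring
    · exact ContinuousAt.log (f := fun t => t + u) (by fun_prop) (by linarith)
    · exact ContinuousAt.log (f := fun t => t + u) (by fun_prop) (by linarith)
    · exact tendsto_const_nhds.div_atTop (tendsto_atTop_add_const_right _ _ tendsto_id)
  choose lb hlb hle using h
  refine ⟨fun M => ∑ k, ξ k * lb k M, _,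
    tendsto_finsetSum _ fun k _ => (hlb k).const_mul (ξ k), ?_, fun M => ?_⟩
  · have e : ∑ k, Real.negMulLog (ξ k) - Real.negMulLog (∑ i, ξ i) =
        ∑ k, ξ k * (Real.log (∑ i, ξ i) - Real.log (ξ k)) := by
      simp only [mul_sub, Finset.sum_sub_distrib, ← Finset.sum_mul, Real.negMulLog, neg_mul,
        Finset.sum_neg_distrib]
      ring
    rw [e]
    refine Finset.sum_le_sum fun k _ => ?_
    rcases (hξ k).eq_or_lt with hk | hk
    · rw [← hk]; simp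
    · have hx : 0 < ∑ i, ξ i :=
        hk.trans_le (Finset.single_le_sum (fun j _ => hξ j) (Finset.mem_univ k))
      have hS0 : 0 < S := by linarith
      have h1 : S * (∑ i, ξ i) / ξ k ≤ Lc ξ u S S' k + u := by
        have : S * (∑ i, ξ i) / ξ k - u ≤ Lc ξ u S S' k := le_max_right _ _
        linarith
      have h2 := Real.log_le_log (by positivity) h1
      have h3 := Real.log_le_log (by positivity) hS
      rw [Real.log_div (by positivity) hk.ne', Real.log_mul hS0.ne' hx.ne'] at h2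
      exact mul_le_mul_of_nonneg_left (by linarith) hk.le
  · rw [Finset.sum_comm]
    refine Finset.sum_le_sum fun k _ => ?_
    rw [← Finset.mul_sum]
    exact mul_le_mul_of_nonneg_left (hle k M) (hξ k)

noncomputable def Wf (x₀ x₁ u₀ u₁ t : ℝ) : ℝ := Real.log (1 + th x₀ u₀ t + th x₁ u₁ t)

noncomputable def Gf (lp lm u₀ u₁ t : ℝ) : ℝ :=
  (t + lp) * Real.log (t + lp) + (t + lm) * Real.log (t + lm) -
    (t + u₀) * Real.log (t + u₀) - (t + u₁) * Real.log (t + u₁)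

lemma main_lim {x₀ x₁ u₀ u₁ lp lm S' : ℝ} (hx₀ : 0 ≤ x₀) (hx₁ : 0 ≤ x₁) (hu₀ : 0 ≤ u₀)
    (hu₁ : 0 ≤ u₁) (hlp : 0 ≤ lp) (hlm : 0 ≤ lm) (hsum : lp + lm = x₀ + x₁ + u₀ + u₁)
    (hprod : lp * lm = x₀ * u₁ + x₁ * u₀ + u₀ * u₁) (hS' : 0 < S') :
    ∃ lb : ℕ → ℝ, Tendsto lb atTop (𝓝 (Gf lp lm u₀ u₁ S' - Gf lp lm u₀ u₁ 0)) ∧ ∀ M, lb M ≤
      ∑ j ∈ Finset.range ((M + 1) ^ 2),
        (Wf x₀ x₁ u₀ u₁ (grid M (j + 1)) - Wf x₀ x₁ u₀ u₁ (grid M j)) * min (grid M (j + 1)) S' := by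
  have hanti : ∀ s t, 0 < s → s ≤ t → Wf x₀ x₁ u₀ u₁ t ≤ Wf x₀ x₁ u₀ u₁ s := by
    intro s t hs hst
    have h1 := th_nonneg hx₀ hu₀ (hs.trans_le hst)
    have h2 := th_nonneg hx₁ hu₁ (hs.trans_le hst)
    have h3 := th_anti hx₀ hu₀ hs hst
    have h4 := th_anti hx₁ hu₁ hs hst
    exact Real.log_le_log (by linarith) (by linarith)
  have hcont : Continuous (Gf lp lm u₀ u₁) := by
    have h : ∀ c : ℝ, Continuous fun t : ℝ => (t + c) * Real.log (t + c) := fun c =>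
      Real.continuous_mul_log.comp (continuous_id.add continuous_const)
    exact (((h lp).add (h lm)).sub (h u₀)).sub (h u₁)
  have hder : ∀ t, 0 < t → HasDerivAt (Gf lp lm u₀ u₁) (Wf x₀ x₁ u₀ u₁ t) t := by
    intro t ht
    have h : ∀ c : ℝ, 0 ≤ c →
        HasDerivAt (fun t : ℝ => (t + c) * Real.log (t + c)) (Real.log (t + c) + 1) t := by
      intro c hc
      have := (Real.hasDerivAt_mul_log (x := t + c) (by positivity)).comp_add_const t c
      exact this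
    have h1 := (((h lp hlp).add (h lm hlm)).sub (h u₀ hu₀)).sub (h u₁ hu₁)
    refine HasDerivAt.congr_deriv h1 ?_
    have e : 1 + th x₀ u₀ t + th x₁ u₁ t = (t + lp) * (t + lm) / ((t + u₀) * (t + u₁)) := by
      unfold th
      have : (t + lp) * (t + lm) = t ^ 2 + (lp + lm) * t + lp * lm := by ring
      rw [this, hsum, hprod]
      field_simp; ring
    unfold Wf
    rw [e, Real.log_div (by positivity) (by positivity), Real.log_mul (by positivity)
      (by positivity), Real.log_mul (by positivity) (by positivity)]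
    ring
  obtain ⟨lb, h1, h2⟩ := abel_lim (Wf x₀ x₁ u₀ u₁) (Gf lp lm u₀ u₁) le_rfl hS'.le
    (fun t ht => Real.log_nonneg
      (by linarith [th_nonneg hx₀ hu₀ ht, th_nonneg hx₁ hu₁ ht])) hanti
    (fun s t hs hst => by
      rcases hst.eq_or_lt with h | h
      · rw [h]; simp
      · obtain ⟨c, hc, hc'⟩ := exists_hasDerivAt_eq_slope (Gf lp lm u₀ u₁) (Wf x₀ x₁ u₀ u₁) h
          hcont.continuousOn (fun y hy => hder y (hs.trans hy.1))
        have := hanti s c hs hc.1.le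
        rw [hc', div_le_iff₀ (by linarith)] at this
        exact this)
    hcont.continuousAt hcont.continuousAt (by
      have h : ∀ x u : ℝ, Tendsto (fun t => th x u t) atTop (𝓝 0) := fun x u =>
        tendsto_const_nhds.div_atTop (tendsto_atTop_add_const_right _ _ tendsto_id)
      have := ((tendsto_const_nhds (x := (1 : ℝ)).add (h x₀ u₀)).add (h x₁ u₁)).log (by simp)
      rw [add_zero, add_zero, Real.log_one] at this
      exact this)
  refine ⟨lb, h1, fun M => (h2 M).trans (le_of_eq ?_)⟩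
  refine Finset.sum_congr rfl fun j _ => ?_
  unfold cl
  rw [max_eq_right (le_min (grid_pos _ _).le hS'.le), sub_zero]

/-- **The scalar analysis.** -/
theorem analysis {ι : Type*} [Fintype ι] {lam : ι → ℝ} {υ₀ υ₁ ξ₀ ξ₁ : B → ℝ} {lp lm : ℝ}
    (hlam : ∀ k, 0 ≤ lam k) (hυ₀ : ∀ k, 0 ≤ υ₀ k) (hυ₁ : ∀ k, 0 ≤ υ₁ k)
    (hξ₀ : ∀ k, 0 ≤ ξ₀ k) (hξ₁ : ∀ k, 0 ≤ ξ₁ k)
    (hcard : Fintype.card ι = 2 * Fintype.card B)
    (htr : ∑ k, lam k = ∑ k, ξ₀ k + ∑ k, ξ₁ k + ∑ k, υ₀ k + ∑ k, υ₁ k)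
    (hlp : 0 ≤ lp) (hlm : 0 ≤ lm)
    (hsum : lp + lm = ∑ k, ξ₀ k + ∑ k, ξ₁ k + ∑ k, υ₀ k + ∑ k, υ₁ k)
    (hprod : lp * lm = (∑ k, ξ₀ k) * (∑ k, υ₁ k) + (∑ k, ξ₁ k) * (∑ k, υ₀ k) +
      (∑ k, υ₀ k) * (∑ k, υ₁ k))
    (IB : ∀ S, 0 < S → ∀ (σ : ℕ → ℝ) (n : ℕ), (∀ j, 0 < σ j) → (∀ j < n, σ (j + 1) ≤ σ j) →
      ∑ j ∈ Finset.range n,
        (ell (th (∑ k, ξ₀ k) (∑ k, υ₀ k) (σ j)) (th (∑ k, ξ₀ k) (∑ k, υ₀ k) (σ (j + 1)))
            (th (∑ k, ξ₁ k) (∑ k, υ₁ k) (σ j)) * Tf ξ₀ (∑ k, υ₀ k) S (σ (j + 1)) +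
          ell (th (∑ k, ξ₁ k) (∑ k, υ₁ k) (σ j)) (th (∑ k, ξ₁ k) (∑ k, υ₁ k) (σ (j + 1)))
            (th (∑ k, ξ₀ k) (∑ k, υ₀ k) (σ (j + 1))) * Tf ξ₁ (∑ k, υ₁ k) S (σ (j + 1)))
        ≤ ∑ k, J S (lam k) - ∑ k, J S (υ₀ k) - ∑ k, J S (υ₁ k)) :
    Real.negMulLog lp + Real.negMulLog lm +
      (∑ k, Real.negMulLog (ξ₀ k) - Real.negMulLog (∑ k, ξ₀ k)) +
      (∑ k, Real.negMulLog (ξ₁ k) - Real.negMulLog (∑ k, ξ₁ k)) +
      (∑ k, Real.negMulLog (υ₀ k) - Real.negMulLog (∑ k, υ₀ k)) +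
      (∑ k, Real.negMulLog (υ₁ k) - Real.negMulLog (∑ k, υ₁ k)) ≤ ∑ k, Real.negMulLog (lam k) := by
  have hx₀ : 0 ≤ ∑ k, ξ₀ k := Finset.sum_nonneg fun i _ => hξ₀ i
  have hx₁ : 0 ≤ ∑ k, ξ₁ k := Finset.sum_nonneg fun i _ => hξ₁ i
  have hu₀ : 0 ≤ ∑ k, υ₀ k := Finset.sum_nonneg fun i _ => hυ₀ i
  have hu₁ : 0 ≤ ∑ k, υ₁ k := Finset.sum_nonneg fun i _ => hυ₁ i
  set H := (∑ k, Real.negMulLog (ξ₀ k) - Real.negMulLog (∑ k, ξ₀ k)) +
      (∑ k, Real.negMulLog (ξ₁ k) - Real.negMulLog (∑ k, ξ₁ k)) with hH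
  -- the bound at a fixed cut-off
  have step : ∀ S', 0 < S' → Gf lp lm (∑ k, υ₀ k) (∑ k, υ₁ k) S' -
      Gf lp lm (∑ k, υ₀ k) (∑ k, υ₁ k) 0 + S' / (S' + ∑ k, ξ₀ k + ∑ k, ξ₁ k) * H ≤
      ∑ k, J (S' + ∑ k, υ₀ k + ∑ k, υ₁ k) (lam k) - ∑ k, J (S' + ∑ k, υ₀ k + ∑ k, υ₁ k) (υ₀ k) -
        ∑ k, J (S' + ∑ k, υ₀ k + ∑ k, υ₁ k) (υ₁ k) := by
    intro S' hS'
    have hS0 : S' + ∑ k, υ₀ k ≤ S' + ∑ k, υ₀ k + ∑ k, υ₁ k := by linarith
    have hS1 : S' + ∑ k, υ₁ k ≤ S' + ∑ k, υ₀ k + ∑ k, υ₁ k := by linarith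
    obtain ⟨lb, hlb, hle⟩ := main_lim hx₀ hx₁ hu₀ hu₁ hlp hlm hsum hprod hS'
    obtain ⟨lb₀, v₀, hlb₀, hv₀, hle₀⟩ := arm_lim hξ₀ hu₀ hS' hS0
    obtain ⟨lb₁, v₁, hlb₁, hv₁, hle₁⟩ := arm_lim hξ₁ hu₁ hS' hS1
    set κ := S' / (S' + ∑ k, ξ₀ k + ∑ k, ξ₁ k) with hκdef
    have hκ0 : 0 ≤ κ := by positivity
    have hκ : κ * (1 + (∑ k, ξ₀ k) / S' + (∑ k, ξ₁ k) / S') = 1 := by
      rw [hκdef]; field_simp
    have hlim := hlb.add ((hlb₀.add hlb₁).const_mul κ)
    refine le_trans ?_ (le_of_tendsto' hlim fun M => ?_)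
    · have : κ * H ≤ κ * (v₀ + v₁) := by rw [hH]; gcongr
      linarith
    · refine le_trans ?_ (IB _ (by positivity) (grid M) ((M + 1) ^ 2) (grid_pos M) (grid_anti M))
      have h1 : κ * (lb₀ M + lb₁ M) ≤ _ :=
        mul_le_mul_of_nonneg_left (add_le_add (hle₀ M) (hle₁ M)) hκ0
      refine (add_le_add (hle M) h1).trans ?_
      rw [← Finset.sum_add_distrib, Finset.mul_sum, ← Finset.sum_add_distrib]
      refine Finset.sum_le_sum fun j hj => ?_
      have hj' := grid_anti M j (Finset.mem_range.1 hj)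
      have p0 := grid_pos M j
      have p1 := grid_pos M (j + 1)
      have a0 := arm (κ := κ) hξ₀ hu₀ hS' hS0 p1 hj' (th_nonneg hx₁ hu₁ p0) (fun h => by
        refine le_trans (mul_le_mul_of_nonneg_left ?_ hκ0) hκ.le
        linarith [th_le hx₀ hu₀ hS' h, th_le hx₁ hu₁ hS' (h.trans hj')])
      have a1 := arm (κ := κ) hξ₁ hu₁ hS' hS1 p1 hj' (th_nonneg hx₀ hu₀ p1) (fun h => by
        refine le_trans (mul_le_mul_of_nonneg_left ?_ hκ0) hκ.le
        linarith [th_le hx₀ hu₀ hS' h, th_le hx₁ hu₁ hS' h])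
      have e : Wf (∑ k, ξ₀ k) (∑ k, ξ₁ k) (∑ k, υ₀ k) (∑ k, υ₁ k) (grid M (j + 1)) -
          Wf (∑ k, ξ₀ k) (∑ k, ξ₁ k) (∑ k, υ₀ k) (∑ k, υ₁ k) (grid M j) =
          ell (th (∑ k, ξ₀ k) (∑ k, υ₀ k) (grid M j)) (th (∑ k, ξ₀ k) (∑ k, υ₀ k) (grid M (j + 1)))
            (th (∑ k, ξ₁ k) (∑ k, υ₁ k) (grid M j)) +
          ell (th (∑ k, ξ₁ k) (∑ k, υ₁ k) (grid M j)) (th (∑ k, ξ₁ k) (∑ k, υ₁ k) (grid M (j + 1)))
            (th (∑ k, ξ₀ k) (∑ k, υ₀ k) (grid M (j + 1))) := by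
        have q0 := th_nonneg hx₀ hu₀ p0
        have q1 := th_nonneg hx₀ hu₀ p1
        have q2 := th_nonneg hx₁ hu₁ p0
        have q3 := th_nonneg hx₁ hu₁ p1
        unfold Wf ell
        rw [Real.log_div (by positivity) (by positivity),
          Real.log_div (by positivity) (by positivity),
          add_right_comm 1 (th (∑ k, ξ₁ k) (∑ k, υ₁ k) (grid M (j + 1))),
          add_right_comm 1 (th (∑ k, ξ₁ k) (∑ k, υ₁ k) (grid M j))]
        ring
      rw [e]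
      linarith
  clear IB
  set x₀ := ∑ k, ξ₀ k
  set x₁ := ∑ k, ξ₁ k
  set u₀ := ∑ k, υ₀ k with hu₀def
  set u₁ := ∑ k, υ₁ k with hu₁def
  set Q := ∑ k, lam k ^ 2 with hQ
  have hQ0 : 0 ≤ Q := Finset.sum_nonneg fun i _ => sq_nonneg _
  set C := |H| * (x₀ + x₁) + u₀ ^ 2 + u₁ ^ 2 + (x₀ + x₁) * (u₀ + u₁) + Q with hC
  have hC0 : 0 ≤ C := by positivity
  have fin : ∀ S', 0 < S' → Real.negMulLog lp + Real.negMulLog lm + H +
      (∑ k, Real.negMulLog (υ₀ k) - Real.negMulLog u₀) +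
      (∑ k, Real.negMulLog (υ₁ k) - Real.negMulLog u₁) ≤ ∑ k, Real.negMulLog (lam k) + C / S' := by
    intro S' hS'
    have h := step S' hS'
    set S := S' + u₀ + u₁ with hSdef
    have hS : 0 < S := by positivity
    have b1 : ∑ k, J S (lam k) ≤ (2 * Fintype.card B * S + (x₀ + x₁ + u₀ + u₁)) * Real.log S +
        (x₀ + x₁ + u₀ + u₁) + Q / S - 2 * Fintype.card B * S + ∑ k, Real.negMulLog (lam k) := by
      have : ∑ k, J S (lam k) ≤ ∑ k, ((S + lam k) * Real.log S + lam k + lam k ^ 2 / S - S +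
          Real.negMulLog (lam k)) := Finset.sum_le_sum fun k _ => by
        have := (mul_log_bounds hS (hlam k)).2
        unfold J; linarith
      refine this.trans (le_of_eq ?_)
      simp only [Finset.sum_add_distrib, Finset.sum_sub_distrib, ← Finset.sum_mul,
        ← Finset.sum_div, Finset.sum_const, Finset.card_univ, hcard, htr, nsmul_eq_mul, ← hQ]
      push_cast; ring
    have b2 : ∀ υ : B → ℝ, (∀ k, 0 ≤ υ k) → (Fintype.card B * S + ∑ k, υ k) * Real.log S +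
        ∑ k, υ k - Fintype.card B * S + ∑ k, Real.negMulLog (υ k) ≤ ∑ k, J S (υ k) := by
      intro υ hυ
      have : ∑ k, ((S + υ k) * Real.log S + υ k - S + Real.negMulLog (υ k)) ≤ ∑ k, J S (υ k) :=
        Finset.sum_le_sum fun k _ => by
          have := (mul_log_bounds hS (hυ k)).1
          unfold J; linarith
      refine le_trans (le_of_eq ?_) this
      simp only [Finset.sum_add_distrib, Finset.sum_sub_distrib, ← Finset.sum_mul,
        Finset.sum_const, Finset.card_univ, nsmul_eq_mul]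
    have b3 := b2 υ₀ hυ₀
    have b4 := b2 υ₁ hυ₁
    rw [← hu₀def] at b3
    rw [← hu₁def] at b4
    have c1 := (mul_log_bounds hS' hlp).1
    have c2 := (mul_log_bounds hS' hlm).1
    have c3 := (mul_log_bounds hS' hu₀).2
    have c4 := (mul_log_bounds hS' hu₁).2
    have d1 : H - |H| * (x₀ + x₁) / S' ≤ S' / (S' + x₀ + x₁) * H := by
      have e : S' / (S' + x₀ + x₁) * H = H - H * (x₀ + x₁) / (S' + x₀ + x₁) := by
        field_simp; ring
      rw [e]
      have : H * (x₀ + x₁) / (S' + x₀ + x₁) ≤ |H| * (x₀ + x₁) / S' := by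
        calc H * (x₀ + x₁) / (S' + x₀ + x₁) ≤ |H| * (x₀ + x₁) / (S' + x₀ + x₁) := by
              gcongr; exact le_abs_self H
          _ ≤ _ := by gcongr; linarith
      linarith
    have d2 : (x₀ + x₁) * Real.log S ≤ (x₀ + x₁) * Real.log S' + (x₀ + x₁) * (u₀ + u₁) / S' := by
      have h1 := Real.log_le_sub_one_of_pos (div_pos hS hS')
      rw [Real.log_div hS.ne' hS'.ne'] at h1
      have e : S / S' - 1 = (u₀ + u₁) / S' := by rw [hSdef]; field_simp; ring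
      rw [e] at h1
      have := mul_le_mul_of_nonneg_left h1 (add_nonneg hx₀ hx₁)
      rw [mul_div_assoc]; linarith
    have d3 : Q / S ≤ Q / S' := by gcongr; linarith
    have e : C / S' = |H| * (x₀ + x₁) / S' + u₀ ^ 2 / S' + u₁ ^ 2 / S' +
      (x₀ + x₁) * (u₀ + u₁) / S' + Q / S' := by rw [hC]; ring
    have e2 : (S' + lp) * Real.log S' + (S' + lm) * Real.log S' =
        (2 * S' + (x₀ + x₁ + u₀ + u₁)) * Real.log S' := by rw [← hsum]; ring
    unfold Gf at h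
    simp only [zero_add] at h
    simp only [Real.negMulLog, neg_mul] at *
    linarith
  have fin2 : Real.negMulLog lp + Real.negMulLog lm + H +
      (∑ k, Real.negMulLog (υ₀ k) - Real.negMulLog u₀) +
      (∑ k, Real.negMulLog (υ₁ k) - Real.negMulLog u₁) ≤ ∑ k, Real.negMulLog (lam k) := by
    refine le_of_forall_pos_le_add fun ε hε => (fin (C / ε + 1) (by positivity)).trans ?_
    gcongr
    rw [div_le_iff₀ (by positivity)]
    have : ε * (C / ε + 1) = C + ε := by field_simp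
    linarith
  rw [hH] at fin2
  linarith

end Crest.Agent.R341
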