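import Crest.Agent.R341.Gad

/-! Convexity of the pure-state output entropy. -/

set_option autoImplicit false
set_option maxHeartbeats 400000
open Set

namespace Crest.Agent.R341

noncomputable def gW (C : ℝ) : ℝ := Real.binEntropy ((1 + Real.sqrt (1 - C ^ 2)) / 2)

noncomputable def Lg (r : ℝ) : ℝ := Real.log (1 + r) - Real.log (1 - r)

lemma Lg_ge {r : ℝ} (h0 : 0 ≤ r) (h1 : r < 1) : 2 * r ≤ Lg r := by
  have h2 : 0 < 1 - r := by linarith
  have h := Real.le_log_one_add_of_nonneg (x := 2 * r / (1 - r)) (by positivity)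
  have e1 : 1 + 2 * r / (1 - r) = (1 + r) / (1 - r) := by field_simp; ring
  have e2 : 2 * (2 * r / (1 - r)) / (2 * r / (1 - r) + 2) = 2 * r := by field_simp; ring
  rw [e1, e2, Real.log_div (by positivity) h2.ne'] at h
  exact h

lemma sqrt_facts {C : ℝ} (hC : C ∈ Ioo (0 : ℝ) 1) :
    0 < Real.sqrt (1 - C ^ 2) ∧ Real.sqrt (1 - C ^ 2) < 1 ∧
      Real.sqrt (1 - C ^ 2) ^ 2 = 1 - C ^ 2 ∧
      HasDerivAt (fun C => Real.sqrt (1 - C ^ 2)) (-C / Real.sqrt (1 - C ^ 2)) C := by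
  have h1 : 0 < 1 - C ^ 2 := by nlinarith [hC.1, hC.2]
  have h2 := Real.sqrt_pos.2 h1
  refine ⟨h2, ?_, Real.sq_sqrt h1.le, ?_⟩
  · rw [Real.sqrt_lt' one_pos]; nlinarith [hC.1]
  · have h3 : HasDerivAt (fun C : ℝ => 1 - C ^ 2) (-(2 * C)) C := by
      simpa using (hasDerivAt_pow 2 C).const_sub 1
    refine (h3.sqrt h1.ne').congr_deriv ?_
    field_simp

lemma gW_deriv {C : ℝ} (hC : C ∈ Ioo (0 : ℝ) 1) :
    HasDerivAt gW (C * Lg (Real.sqrt (1 - C ^ 2)) / (2 * Real.sqrt (1 - C ^ 2))) C := by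
  obtain ⟨h0, h1, -, hd⟩ := sqrt_facts hC
  have h2 := (hd.const_add 1).div_const 2
  have h3 := (Real.hasDerivAt_binEntropy (p := (1 + Real.sqrt (1 - C ^ 2)) / 2) (by linarith)
    (by linarith)).comp C h2
  refine HasDerivAt.congr_deriv h3 ?_
  set r := Real.sqrt (1 - C ^ 2)
  have e : 1 - (1 + r) / 2 = (1 - r) / 2 := by ring
  rw [e, Real.log_div (by linarith) two_ne_zero, Real.log_div (by linarith) two_ne_zero]
  unfold Lg
  field_simp; ring

lemma gW_deriv2 {C : ℝ} (hC : C ∈ Ioo (0 : ℝ) 1) :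
    HasDerivAt (fun C => C * Lg (Real.sqrt (1 - C ^ 2)) / (2 * Real.sqrt (1 - C ^ 2)))
      ((Lg (Real.sqrt (1 - C ^ 2)) / 2 - Real.sqrt (1 - C ^ 2)) / Real.sqrt (1 - C ^ 2) ^ 3) C := by
  obtain ⟨h0, h1, h2, hd⟩ := sqrt_facts hC
  have a1 := (hd.const_add 1).log (by linarith)
  have a2 := (hd.const_sub 1).log (by linarith)
  have a3 := ((hasDerivAt_id C).mul (a1.sub a2)).div (hd.const_mul 2) (by linarith)
  refine HasDerivAt.congr_deriv a3 ?_
  simp only [id, Pi.mul_apply, Pi.sub_apply]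
  set r := Real.sqrt (1 - C ^ 2)
  unfold Lg
  set L1 := Real.log (1 + r)
  set L2 := Real.log (1 - r)
  have b1 : 1 + r ≠ 0 := by linarith
  have b2 : 1 - r ≠ 0 := by linarith
  have e : C ^ 2 = 1 - r ^ 2 := by linarith
  field_simp
  rw [e]; ring

lemma gW_cont : Continuous gW := by unfold gW; fun_prop

lemma gW_convex : ConvexOn ℝ (Icc 0 1) gW := by
  refine convexOn_of_hasDerivWithinAt2_nonneg (convex_Icc 0 1) gW_cont.continuousOn
    (fun x hx => (gW_deriv (by simpa using hx)).hasDerivWithinAt)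
    (fun x hx => (gW_deriv2 (by simpa using hx)).hasDerivWithinAt) (fun x hx => ?_)
  obtain ⟨h0, h1, -, -⟩ := sqrt_facts (C := x) (by simpa using hx)
  have := Lg_ge h0.le h1
  exact div_nonneg (by linarith) (by positivity)

lemma gW_mono : MonotoneOn gW (Icc 0 1) := by
  refine monotoneOn_of_hasDerivWithinAt_nonneg (convex_Icc 0 1) gW_cont.continuousOn
    (fun x hx => (gW_deriv (by simpa using hx)).hasDerivWithinAt) (fun x hx => ?_)
  have hx' : x ∈ Ioo (0 : ℝ) 1 := by simpa using hx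
  obtain ⟨h0, h1, -, -⟩ := sqrt_facts hx'
  have := Lg_ge h0.le h1
  exact div_nonneg (mul_nonneg hx'.1.le (by linarith)) (by positivity)

/-- Jensen's inequality for the pure-state output entropy. -/
theorem fE_jensen {γ ν : ℝ} (hγ : γ ∈ Icc (0 : ℝ) 1) (hν : ν ∈ Icc (0 : ℝ) 1)
    {ι : Type*} [Fintype ι] {q p : ι → ℝ} (hq : ∀ a, 0 ≤ q a) (hq1 : ∑ a, q a = 1)
    (hp : ∀ a, p a ∈ Icc (0 : ℝ) 1) : fE γ ν (∑ a, q a * p a) ≤ ∑ a, q a * fE γ ν (p a) := by
  have hA : 0 ≤ γ * ν * (1 - ν) := by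
    have := hγ.1; have := hν.1; have := sub_nonneg.2 hν.2; positivity
  have hB : 0 ≤ γ * (1 - γ) := mul_nonneg hγ.1 (sub_nonneg.2 hγ.2)
  let z : ℝ → ℂ := fun p => ⟨2 * Real.sqrt (γ * ν * (1 - ν)), 2 * Real.sqrt (γ * (1 - γ)) * (p - ν)⟩
  have hz : ∀ p, ‖z p‖ ^ 2 = 4 * vv γ ν p := by
    intro p
    rw [Complex.sq_norm, Complex.normSq_apply]
    have e1 := Real.mul_self_sqrt hA
    have e2 := Real.mul_self_sqrt hB
    simp only [z]; unfold vv
    linear_combination 4 * e1 + 4 * (p - ν) ^ 2 * e2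
  have hf : ∀ p, fE γ ν p = gW ‖z p‖ := fun p => by unfold fE gW; rw [hz]
  have hz1 : ∀ p ∈ Icc (0 : ℝ) 1, ‖z p‖ ∈ Icc (0 : ℝ) 1 := by
    intro p hp
    refine ⟨norm_nonneg _, ?_⟩
    have := vv_le (ν := ν) hγ hp
    rw [← hz] at this
    nlinarith [norm_nonneg (z p)]
  have hbar : ∑ a, q a * p a ∈ Icc (0 : ℝ) 1 := by
    refine ⟨Finset.sum_nonneg fun a _ => mul_nonneg (hq a) (hp a).1, ?_⟩
    rw [← hq1]
    exact Finset.sum_le_sum fun a _ => mul_le_of_le_one_right (hq a) (hp a).2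
  have haff : z (∑ a, q a * p a) = ∑ a, (q a : ℂ) * z (p a) := by
    apply Complex.ext
    · simp [z, Complex.re_sum, ← Finset.sum_mul, hq1]
    · simp only [z, Complex.im_sum, Complex.im_ofReal_mul]
      have : ∀ a, q a * (2 * Real.sqrt (γ * (1 - γ)) * (p a - ν)) =
          2 * Real.sqrt (γ * (1 - γ)) * (q a * p a - q a * ν) := fun a => by ring
      simp only [this, ← Finset.mul_sum, Finset.sum_sub_distrib, ← Finset.sum_mul, hq1, one_mul]
  have htri : ‖z (∑ a, q a * p a)‖ ≤ ∑ a, q a * ‖z (p a)‖ := by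
    rw [haff]
    refine (norm_sum_le _ _).trans (le_of_eq (Finset.sum_congr rfl fun a _ => ?_))
    rw [norm_mul, Complex.norm_real, Real.norm_of_nonneg (hq a)]
  have hbar2 : ∑ a, q a * ‖z (p a)‖ ∈ Icc (0 : ℝ) 1 := by
    refine ⟨Finset.sum_nonneg fun a _ => mul_nonneg (hq a) (norm_nonneg _), ?_⟩
    rw [← hq1]
    exact Finset.sum_le_sum fun a _ => mul_le_of_le_one_right (hq a) (hz1 _ (hp a)).2
  simp only [hf]
  refine (gW_mono (hz1 _ hbar) hbar2 htri).trans ?_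
  exact gW_convex.map_sum_le (fun a _ => hq a) hq1 (fun a _ => hz1 _ (hp a))

end Crest.Agent.R341
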