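import Crest.Agent.R341.Quad

/-! Eigenvalue counting (a law of inertia), the chain inequality and the determinant split. -/

set_option autoImplicit false
open Matrix Crest.Quantum
open scoped ComplexOrder

namespace Crest.Agent.R341

variable {B E : Type*} [Fintype B] [DecidableEq B] [Fintype E] [DecidableEq E]

lemma exists_kernel (G : Matrix E B ℂ) (I : Finset B) (J : Finset E) (h : J.card < I.card) :
    ∃ c : B → ℂ, c ≠ 0 ∧ (∀ k, k ∉ I → c k = 0) ∧ ∀ k ∈ J, (G *ᵥ c) k = 0 := by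
  let G' : Matrix J I ℂ := G.submatrix Subtype.val Subtype.val
  have hker : LinearMap.ker G'.mulVecLin ≠ ⊥ := by
    apply LinearMap.ker_ne_bot_of_finrank_lt
    simpa using h
  obtain ⟨c, hc, hc0⟩ := Submodule.exists_mem_ne_zero_of_ne_bot hker
  refine ⟨fun k => if h : k ∈ I then c ⟨k, h⟩ else 0, ?_, fun k hk => by simp [hk], ?_⟩
  · intro h0
    apply hc0
    ext ⟨k, hk⟩
    have := congrFun h0 k
    simpa [hk] using this
  · intro k hk
    have := congrFun (LinearMap.mem_ker.1 hc) ⟨k, hk⟩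
    simp only [mulVecLin_apply, mulVec, dotProduct, G', submatrix_apply, Pi.zero_apply] at this
    simp only [mulVec, dotProduct]
    rw [← Finset.sum_subset (Finset.subset_univ I) (fun i _ hi => by simp [hi]),
      ← Finset.sum_coe_sort I]
    refine Eq.trans (Finset.sum_congr rfl fun i _ => by simp) this

omit [DecidableEq B] in
lemma nsq_pos {v : B → ℂ} (hv : v ≠ 0) : 0 < nsq v := by
  obtain ⟨i, hi⟩ := Function.ne_iff.1 hv
  exact Finset.sum_pos' (fun j _ => Complex.normSq_nonneg _)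
    ⟨i, Finset.mem_univ _, Complex.normSq_pos.2 hi⟩

/-- **Counting lemma.** -/
lemma count_le (N : Matrix B E ℂ) {U C W : Matrix B B ℂ} {V : Matrix E E ℂ} {μ : B → ℝ}
    {l : E → ℝ} {a s : ℝ} (hU : U.PosSemidef) (hs : 0 < s) (ha : 0 < a)
    (hC : (N * Nᴴ - (a : ℂ) • C).PosSemidef) (hW : Wᴴ * W = 1) (hV : Vᴴ * V = 1)
    (hH : C - U = sp W μ) (hA : Nᴴ * ((s : ℂ) • (1 : Matrix B B ℂ) + U)⁻¹ * N = sp V l) :
    (Finset.univ.filter fun k => s ≤ μ k).card ≤ (Finset.univ.filter fun k => a ≤ l k).card := by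
  by_contra hlt
  push Not at hlt
  obtain ⟨c, hc0, hcI, hcJ⟩ := exists_kernel (Vᴴ * Nᴴ * W) _ _ hlt
  set K : Matrix B B ℂ := (s : ℂ) • (1 : Matrix B B ℂ) + U with hKdef
  have hK : K.PosDef := (PosDef.one.smul (by simpa using hs)).add_posSemidef hU
  set y := W *ᵥ c with hy
  set z := Nᴴ *ᵥ y with hz
  set w := Vᴴ *ᵥ z with hw
  have hWy : Wᴴ *ᵥ y = c := by rw [hy, mulVec_mulVec, hW, one_mulVec]
  have hy0 : y ≠ 0 := by
    intro h; apply hc0; rw [← hWy, h, mulVec_zero]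
  have hw0 : ∀ k, a ≤ l k → w k = 0 := by
    intro k hk
    have := hcJ k (by simpa using hk)
    rwa [← mulVec_mulVec, ← mulVec_mulVec] at this
  -- (1) the form of `C - U` on `y`
  have h1 : s * nsq y ≤ qf (C - U) y := by
    rw [hH, qf_sp, hWy, hy, nsq_unitary hW, nsq, Finset.mul_sum]
    refine Finset.sum_le_sum fun k _ => ?_
    by_cases hk : s ≤ μ k
    · exact mul_le_mul_of_nonneg_right hk (Complex.normSq_nonneg _)
    · rw [hcI k (by simpa using hk)]; simp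
  have h2 : qf K y ≤ qf C y := by
    rw [qf_sub] at h1
    rw [hKdef, qf_add, qf_smul, qf_one]; linarith
  have h3 : a * qf C y ≤ nsq z := by
    have := qf_nonneg hC y
    rw [qf_sub, qf_smul, qf_mul_conjTranspose] at this
    linarith
  have hk : 0 < qf K y := qf_pos hK hy0
  have h4 : a * qf K y ≤ nsq z := le_trans (by gcongr) h3
  have hr : 0 < nsq z := lt_of_lt_of_le (by positivity) h4
  have h5 : a * nsq z ≤ qf (sp V l) z := by
    rw [← hA, qf_conj]
    have := qf_inv_ge hK (N *ᵥ z) y a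
    have e : (star y ⬝ᵥ N *ᵥ z).re = nsq z := by
      rw [← qf_mul_conjTranspose, qf, hz, mulVec_mulVec]
    rw [e] at this
    nlinarith
  have hV' : Vᴴᴴ * Vᴴ = 1 := by rw [conjTranspose_conjTranspose]; exact mul_eq_one_comm.1 hV
  have hnw : nsq w = nsq z := nsq_unitary hV' z
  have hw1 : w ≠ 0 := by
    intro h; rw [h] at hnw; simp [nsq] at hnw; simp [nsq, ← hnw] at hr
  rw [qf_sp, ← hw, ← hnw, nsq, Finset.mul_sum] at h5
  obtain ⟨i, hi⟩ := Function.ne_iff.1 hw1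
  have h6 : ∑ k, l k * Complex.normSq (w k) < ∑ k, a * Complex.normSq (w k) := by
    refine Finset.sum_lt_sum (fun k _ => ?_) ⟨i, Finset.mem_univ _, ?_⟩
    · by_cases hk : a ≤ l k
      · rw [hw0 k hk]; simp
      · exact mul_le_mul_of_nonneg_right (not_le.1 hk).le (Complex.normSq_nonneg _)
    · have : ¬ a ≤ l i := fun h => hi (hw0 i h)
      exact mul_lt_mul_of_pos_right (not_le.1 this) (Complex.normSq_pos.2 hi)
  linarith

lemma LD_mono {V W : Matrix E E ℂ} (hV : Vᴴ * V = 1) (hW : Wᴴ * W = 1) {c c' d d' : E → ℝ}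
    (hc : ∀ k, 0 ≤ c k) (hcc : ∀ k, c k ≤ c' k) (hd : ∀ k, 0 ≤ d k) (hdd : ∀ k, d k ≤ d' k) :
    LD (1 + sp V c + sp W d) ≤ LD (1 + sp V c' + sp W d') := by
  have aux : ∀ {V W : Matrix E E ℂ}, Vᴴ * V = 1 → Wᴴ * W = 1 → ∀ {c c' d : E → ℝ},
      (∀ k, 0 ≤ c k) → (∀ k, c k ≤ c' k) → (∀ k, 0 ≤ d k) →
      LD (1 + sp V c + sp W d) ≤ LD (1 + sp V c' + sp W d) := by
    intro V W hV hW c c' d hc hcc hd
    have hb : ∀ k, d k ≤ ∑ j, d j := fun k =>
      Finset.single_le_sum (fun j _ => hd j) (Finset.mem_univ k)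
    have hb0 : 0 ≤ ∑ j, d j := Finset.sum_nonneg fun j _ => hd j
    have h := LD_raise hV hW hd hb hc hcc
    have : 0 ≤ ∑ k, Real.log ((1 + c' k + ∑ j, d j) / (1 + c k + ∑ j, d j)) := by
      refine Finset.sum_nonneg fun k _ => Real.log_nonneg ?_
      have := hc k; have := hcc k
      rw [one_le_div (by positivity)]; linarith
    linarith
  refine (aux hV hW hc hcc hd).trans ?_
  rw [add_right_comm, add_right_comm 1 (sp V c')]
  exact aux hW hV hd hdd (fun k => (hc k).trans (hcc k))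

lemma LD_step {V W : Matrix E E ℂ} (hV : Vᴴ * V = 1) (hW : Wᴴ * W = 1) {l d : E → ℝ}
    (hl : ∀ k, 0 ≤ l k) (hd : ∀ k, 0 ≤ d k) {a a' b : ℝ} (ha : 0 ≤ a) (haa : a ≤ a')
    (hb0 : 0 ≤ b) (hb : ∀ k, d k ≤ b) :
    LD (1 + sp V (fun k => min (l k) a) + sp W d) +
      (Finset.univ.filter fun k => a' ≤ l k).card * Real.log ((1 + a' + b) / (1 + a + b))
      ≤ LD (1 + sp V (fun k => min (l k) a') + sp W d) := by
  have h := LD_raise hV hW hd hb (c := fun k => min (l k) a) (c' := fun k => min (l k) a')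
    (fun k => le_min (hl k) ha) (fun k => min_le_min_left _ haa)
  refine le_trans ?_ h
  gcongr
  rw [← nsmul_eq_mul, ← Finset.sum_const, Finset.sum_filter]
  refine Finset.sum_le_sum fun k _ => ?_
  split_ifs with hk
  · rw [min_eq_right hk, min_eq_right (haa.trans hk)]
  · refine Real.log_nonneg ?_
    have := le_min (hl k) ha
    have := min_le_min_left (l k) haa
    rw [one_le_div (by positivity)]; linarith

/-- **Chain inequality.** -/
lemma LD_chain {V W : Matrix E E ℂ} (hV : Vᴴ * V = 1) (hW : Wᴴ * W = 1) {l₀ l₁ : E → ℝ}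
    (h₀ : ∀ k, 0 ≤ l₀ k) (h₁ : ∀ k, 0 ≤ l₁ k) {a b : ℕ → ℝ} (ha0 : ∀ j, 0 ≤ a j)
    (hb0 : ∀ j, 0 ≤ b j) (M : ℕ) (ha : ∀ j < M, a j ≤ a (j + 1)) (hb : ∀ j < M, b j ≤ b (j + 1)) :
    ∑ j ∈ Finset.range M,
      ((Finset.univ.filter fun k => a (j + 1) ≤ l₀ k).card *
          Real.log ((1 + a (j + 1) + b j) / (1 + a j + b j)) +
        (Finset.univ.filter fun k => b (j + 1) ≤ l₁ k).card *
          Real.log ((1 + b (j + 1) + a (j + 1)) / (1 + b j + a (j + 1))))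
      ≤ LD (1 + sp V l₀ + sp W l₁) := by
  have key : ∀ M' ≤ M, ∑ j ∈ Finset.range M',
      ((Finset.univ.filter fun k => a (j + 1) ≤ l₀ k).card *
          Real.log ((1 + a (j + 1) + b j) / (1 + a j + b j)) +
        (Finset.univ.filter fun k => b (j + 1) ≤ l₁ k).card *
          Real.log ((1 + b (j + 1) + a (j + 1)) / (1 + b j + a (j + 1))))
      ≤ LD (1 + sp V (fun k => min (l₀ k) (a M')) + sp W (fun k => min (l₁ k) (b M'))) := by
    intro M' hM'
    induction M' with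
    | zero =>
      have := LD_mono hV hW (c := fun _ => 0) (d := fun _ => 0) (fun _ => le_rfl)
        (fun k => le_min (h₀ k) (ha0 0)) (fun _ => le_rfl) (fun k => le_min (h₁ k) (hb0 0))
      rw [sp_const hV, sp_const hW] at this
      simpa [LD_one] using this
    | succ j ih =>
      have ih := ih (by omega)
      rw [Finset.sum_range_succ]
      have s1 := LD_step hV hW h₀ (d := fun k => min (l₁ k) (b j)) (fun k => le_min (h₁ k) (hb0 j))
        (ha0 j) (ha j (by omega)) (hb0 j) (fun k => min_le_right _ _)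
      have s2 := LD_step hW hV h₁ (d := fun k => min (l₀ k) (a (j + 1)))
        (fun k => le_min (h₀ k) (ha0 _)) (hb0 j) (hb j (by omega)) (ha0 (j + 1))
        (fun k => min_le_right _ _)
      rw [add_right_comm, add_right_comm 1 (sp W fun k => min (l₁ k) (b (j + 1)))] at s2
      linarith
  refine (key M le_rfl).trans ?_
  exact LD_mono hV hW (fun k => le_min (h₀ k) (ha0 _)) (fun k => min_le_left _ _)
    (fun k => le_min (h₁ k) (hb0 _)) (fun k => min_le_left _ _)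

/-- **Determinant split.** -/
lemma LD_split (N₀ N₁ : Matrix B E ℂ) {U₀ U₁ : Matrix B B ℂ} (h₀ : U₀.PosSemidef)
    (h₁ : U₁.PosSemidef) {s : ℝ} (hs : 0 < s) :
    LD ((s : ℂ) • (1 : Matrix (B ⊕ B) (B ⊕ B) ℂ) +
        fromBlocks (N₀ * N₀ᴴ + U₀) (N₀ * N₁ᴴ) (N₁ * N₀ᴴ) (N₁ * N₁ᴴ + U₁)) =
      LD ((s : ℂ) • (1 : Matrix B B ℂ) + U₀) + LD ((s : ℂ) • (1 : Matrix B B ℂ) + U₁) +
        LD (1 + N₀ᴴ * ((s : ℂ) • (1 : Matrix B B ℂ) + U₀)⁻¹ * N₀ +
          N₁ᴴ * ((s : ℂ) • (1 : Matrix B B ℂ) + U₁)⁻¹ * N₁) := by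
  set K₀ : Matrix B B ℂ := (s : ℂ) • (1 : Matrix B B ℂ) + U₀ with hK₀def
  set K₁ : Matrix B B ℂ := (s : ℂ) • (1 : Matrix B B ℂ) + U₁ with hK₁def
  have hK₀ : K₀.PosDef := (PosDef.one.smul (by simpa using hs)).add_posSemidef h₀
  have hK₁ : K₁.PosDef := (PosDef.one.smul (by simpa using hs)).add_posSemidef h₁
  have e : (s : ℂ) • (1 : Matrix (B ⊕ B) (B ⊕ B) ℂ) +
        fromBlocks (N₀ * N₀ᴴ + U₀) (N₀ * N₁ᴴ) (N₁ * N₀ᴴ) (N₁ * N₁ᴴ + U₁) =
      fromBlocks K₀ 0 0 K₁ + fromRows N₀ N₁ * fromCols N₀ᴴ N₁ᴴ := by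
    rw [fromRows_mul_fromCols, ← fromBlocks_one, fromBlocks_smul, fromBlocks_add, fromBlocks_add,
      hK₀def, hK₁def]
    congr 1 <;> simp <;> abel
  have hu : IsUnit (fromBlocks K₀ 0 0 K₁).det := by
    rw [det_fromBlocks_zero₂₁]
    exact ((isUnit_iff_isUnit_det _).1 hK₀.isUnit).mul ((isUnit_iff_isUnit_det _).1 hK₁.isUnit)
  have e2 : (fromBlocks K₀ 0 0 K₁)⁻¹ = fromBlocks K₀⁻¹ 0 0 K₁⁻¹ := by
    rw [inv_fromBlocks_zero₂₁_of_isUnit_iff _ _ _ (iff_of_true hK₀.isUnit hK₁.isUnit)]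
    simp
  have hP : (1 + N₀ᴴ * K₀⁻¹ * N₀ + N₁ᴴ * K₁⁻¹ * N₁).PosDef :=
    (PosDef.one.add_posSemidef (hK₀.inv.posSemidef.conjTranspose_mul_mul_same _)).add_posSemidef
      (hK₁.inv.posSemidef.conjTranspose_mul_mul_same _)
  unfold LD
  rw [e, det_add_mul _ _ hu, e2, fromCols_mul_fromBlocks, fromCols_mul_fromRows,
    det_fromBlocks_zero₂₁]
  simp only [Matrix.mul_zero, add_zero, zero_add, norm_mul]
  rw [← add_assoc, Real.log_mul, Real.log_mul]
  · exact norm_ne_zero_iff.2 hK₀.det_pos.ne'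
  · exact norm_ne_zero_iff.2 hK₁.det_pos.ne'
  · exact mul_ne_zero (norm_ne_zero_iff.2 hK₀.det_pos.ne') (norm_ne_zero_iff.2 hK₁.det_pos.ne')
  · exact norm_ne_zero_iff.2 hP.det_pos.ne'

end Crest.Agent.R341
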