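import Crest.Agent.R341.KI
import Crest.Prelude.Def_AmpDamp

/-! The output entropy bound for the amplitude-damping channel tensored with a channel. -/

set_option autoImplicit false
set_option maxHeartbeats 400000
set_option linter.unusedSectionVars false
open Matrix Crest.Quantum Crest.MathPhysics.AmpDamp
open scoped ComplexOrder Kronecker

namespace Crest.Agent.R341

variable {d e : Type*} [Fintype d] [DecidableEq d] [Fintype e] [DecidableEq e]

omit [DecidableEq d] [DecidableEq e] [Fintype d] [Fintype e] in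
lemma blockwise_psd {Ψ : Matrix d d ℂ → Matrix e e ℂ} (hΨ : IsCompletelyPositive Ψ)
    {k : Type*} [Fintype k] {M : Matrix (k × d) (k × d) ℂ} (hM : M.PosSemidef) :
    (blockwise Ψ M).PosSemidef := by
  let φ := Fintype.equivFin k
  have h := (hΨ _ _ (hM.submatrix (Prod.map φ.symm id))).submatrix (Prod.map φ id : k × e → _)
  convert h using 1
  ext p q
  simp only [blockwise, submatrix_apply, of_apply, Prod.map_fst, Prod.map_snd, id]
  congr 1
  ext i j
  simp [block]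

omit [DecidableEq d] [DecidableEq e] [Fintype d] [Fintype e] in
lemma psd_of_cp {Ψ : Matrix d d ℂ → Matrix e e ℂ} (hΨ : IsCompletelyPositive Ψ)
    {M : Matrix d d ℂ} (hM : M.PosSemidef) : (Ψ M).PosSemidef :=
  (blockwise_psd hΨ (k := Unit) (hM.submatrix Prod.snd)).submatrix (fun i => ((), i))

omit [DecidableEq d] [Fintype d] in
lemma block_psd {k : Type*} {M : Matrix (k × d) (k × d) ℂ} (hM : M.PosSemidef) (s : k) :
    (block M s s).PosSemidef := hM.submatrix (fun i => (s, i))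

omit [DecidableEq d] [Fintype d] in
lemma sub_bool (M : Matrix (Bool × d) (Bool × d) ℂ) :
    M.submatrix (Equiv.boolProdEquivSum d).symm (Equiv.boolProdEquivSum d).symm =
      fromBlocks (block M false false) (block M false true) (block M true false)
        (block M true true) := by
  ext (i | i) (j | j) <;> rfl

omit [DecidableEq d] in
lemma trace_bool (M : Matrix (Bool × d) (Bool × d) ℂ) :
    M.trace = (block M false false).trace + (block M true true).trace := by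
  simp [trace, block, Fintype.sum_prod_type, add_comm]

omit [DecidableEq d] in
lemma re_trace_nonneg {M : Matrix d d ℂ} (hM : M.PosSemidef) : 0 ≤ M.trace.re :=
  (Complex.le_def.1 hM.trace_nonneg).1

omit [DecidableEq d] in
lemma trace_eq_re {M : Matrix d d ℂ} (hM : M.PosSemidef) : M.trace = (M.trace.re : ℂ) := by
  have := (Complex.le_def.1 hM.trace_nonneg).2
  exact Complex.ext (by simp) (by simpa using this.symm)

section
variable (γ ν : ℝ) (Ψ : Matrix d d ℂ → Matrix e e ℂ) (M : Matrix (Bool × d) (Bool × d) ℂ)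

omit [DecidableEq d] [DecidableEq e] [Fintype d] [Fintype e]

lemma qT_ff : block (qubitTensor (gadMap γ ν) Ψ M) false false =
    ((1 - γ * ν : ℝ) : ℂ) • Ψ (block M false false) +
      ((γ * (1 - ν) : ℝ) : ℂ) • Ψ (block M true true) := by
  ext i j
  simp [block, qubitTensor, qubitCoeff, gadMap, add_comm]

lemma qT_tt : block (qubitTensor (gadMap γ ν) Ψ M) true true =
    ((γ * ν : ℝ) : ℂ) • Ψ (block M false false) +
      ((1 - γ + γ * ν : ℝ) : ℂ) • Ψ (block M true true) := by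
  ext i j
  simp [block, qubitTensor, qubitCoeff, gadMap, add_comm]

lemma qT_ft : block (qubitTensor (gadMap γ ν) Ψ M) false true =
    ((Real.sqrt (1 - γ) : ℝ) : ℂ) • Ψ (block M false true) := by
  ext i j
  simp [block, qubitTensor, qubitCoeff, gadMap]

lemma qT_tf : block (qubitTensor (gadMap γ ν) Ψ M) true false =
    ((Real.sqrt (1 - γ) : ℝ) : ℂ) • Ψ (block M true false) := by
  ext i j
  simp [block, qubitTensor, qubitCoeff, gadMap]

end

/-- determinant of the output of a pure state -/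
def vv (γ ν p : ℝ) : ℝ := γ * ν * (1 - ν) + γ * (1 - γ) * (p - ν) ^ 2

/-- entropy of the output of a pure state -/
noncomputable def fE (γ ν p : ℝ) : ℝ := Real.binEntropy ((1 + Real.sqrt (1 - 4 * vv γ ν p)) / 2)

lemma gadRate_eq (γ ν p : ℝ) :
    gadRate γ ν p = Real.binEntropy ((1 - γ) * p + γ * ν) - fE γ ν p := rfl

lemma vv_nonneg {γ ν : ℝ} (hγ : γ ∈ Set.Icc (0 : ℝ) 1) (hν : ν ∈ Set.Icc (0 : ℝ) 1) (p : ℝ) :
    0 ≤ vv γ ν p := by
  have := hγ.1; have := hν.1; have := sub_nonneg.2 hγ.2; have := sub_nonneg.2 hν.2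
  unfold vv; positivity

lemma vv_le {γ ν p : ℝ} (hγ : γ ∈ Set.Icc (0 : ℝ) 1) (hp : p ∈ Set.Icc (0 : ℝ) 1) :
    0 ≤ 1 - 4 * vv γ ν p := by
  have e : 1 - 4 * vv γ ν p = (1 - 2 * ((1 - γ) * p + γ * ν)) ^ 2 + 4 * (1 - γ) * p * (1 - p) := by
    unfold vv; ring
  have := hp.1; have := sub_nonneg.2 hγ.2; have := sub_nonneg.2 hp.2
  rw [e]; positivity

lemma fE_spec {γ ν p : ℝ} (hγ : γ ∈ Set.Icc (0 : ℝ) 1) (hν : ν ∈ Set.Icc (0 : ℝ) 1)
    (hp : p ∈ Set.Icc (0 : ℝ) 1) : ∃ lp lm : ℝ, 0 ≤ lp ∧ 0 ≤ lm ∧ lp + lm = 1 ∧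
      lp * lm = vv γ ν p ∧ fE γ ν p = Real.negMulLog lp + Real.negMulLog lm := by
  have h1 := vv_nonneg hγ hν p
  have h2 := vv_le (ν := ν) hγ hp
  have h3 := Real.sq_sqrt h2
  have h4 : Real.sqrt (1 - 4 * vv γ ν p) ≤ 1 := Real.sqrt_le_one.2 (by linarith)
  refine ⟨_, _, by positivity, by linarith, by ring, by nlinarith,
    Real.binEntropy_eq_negMulLog_add_negMulLog_one_sub _⟩

/-- The structure of the output. -/
lemma gad_struct {γ ν : ℝ} (hγ : γ ∈ Set.Icc (0 : ℝ) 1) (hν : ν ∈ Set.Icc (0 : ℝ) 1)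
    {Ψ : Matrix d d ℂ → Matrix e e ℂ} (hΨ : IsCompletelyPositive Ψ)
    {ρ : Matrix (Bool × d) (Bool × d) ℂ} (hρ : ρ.PosSemidef) :
    ∃ (N₀ N₁ : Matrix e (Bool × e) ℂ) (c : ℝ), 0 ≤ c ∧ c ≤ 1 - γ + γ * ν ∧
      (1 - γ * ν) * c = 1 - γ ∧
      N₀ * N₀ᴴ = ((1 - γ * ν : ℝ) : ℂ) • Ψ (block ρ false false) ∧
      N₁ * N₁ᴴ = (c : ℂ) • Ψ (block ρ true true) ∧
      (qubitTensor (gadMap γ ν) Ψ ρ).submatrix (Equiv.boolProdEquivSum e).symm
        (Equiv.boolProdEquivSum e).symm =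
      fromBlocks (N₀ * N₀ᴴ + ((γ * (1 - ν) : ℝ) : ℂ) • Ψ (block ρ true true)) (N₀ * N₁ᴴ) (N₁ * N₀ᴴ)
        (N₁ * N₁ᴴ + (((γ * ν : ℝ) : ℂ) • Ψ (block ρ false false) +
          ((1 - γ + γ * ν - c : ℝ) : ℂ) • Ψ (block ρ true true))) := by
  obtain ⟨M, hM⟩ := exists_sqrt (blockwise_psd hΨ hρ)
  let R : Bool → Matrix e (Bool × e) ℂ := fun s => M.submatrix (fun i => (s, i)) id
  have hR : ∀ s t, R s * (R t)ᴴ = Ψ (block ρ s t) := by
    intro s t
    ext i j
    have := congrFun (congrFun hM (s, i)) (t, j)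
    simp only [blockwise, of_apply] at this
    rw [this]
    simp [R, Matrix.mul_apply]
  have ha : 0 ≤ 1 - γ * ν := by nlinarith [hγ.1, hγ.2, hν.1, hν.2]
  have hη : 0 ≤ 1 - γ := sub_nonneg.2 hγ.2
  set c := (1 - γ) / (1 - γ * ν) with hc
  have hc0 : 0 ≤ c := by positivity
  have hac : (1 - γ * ν) * c = 1 - γ := by
    rcases ha.eq_or_lt with h | h
    · rw [← h, zero_mul]
      nlinarith [hγ.1, hγ.2, hν.1, hν.2]
    · rw [hc]; field_simp
  have hcd : c ≤ 1 - γ + γ * ν := by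
    rcases ha.eq_or_lt with h | h
    · rw [hc, ← h, div_zero]; nlinarith [hγ.1, hγ.2, hν.1, hν.2]
    · rw [hc, div_le_iff₀ h]
      have : 0 ≤ γ ^ 2 * ν * (1 - ν) := by
        have := hν.1; have := sub_nonneg.2 hν.2; positivity
      nlinarith
  have hs : ∀ (x y : ℝ) (s t : Bool), 0 ≤ x →
      (((Real.sqrt x : ℝ) : ℂ) • R s) * (((Real.sqrt y : ℝ) : ℂ) • R t)ᴴ =
        ((Real.sqrt (x * y) : ℝ) : ℂ) • Ψ (block ρ s t) := by
    intro x y s t hx
    rw [conjTranspose_smul, Matrix.smul_mul, Matrix.mul_smul, hR, smul_smul, Real.sqrt_mul hx]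
    simp
  refine ⟨((Real.sqrt (1 - γ * ν) : ℝ) : ℂ) • R false, ((Real.sqrt c : ℝ) : ℂ) • R true, c, hc0, hcd,
    hac, ?_, ?_, ?_⟩
  · rw [hs _ _ _ _ ha, Real.sqrt_mul_self ha]
  · rw [hs _ _ _ _ hc0, Real.sqrt_mul_self hc0]
  · rw [sub_bool, qT_ff, qT_tt, qT_ft, qT_tf, hs _ _ _ _ ha, hs _ _ _ _ ha, hs _ _ _ _ hc0,
      hs _ _ _ _ hc0, Real.sqrt_mul_self ha, Real.sqrt_mul_self hc0, mul_comm c, hac]
    congr 1
    rw [add_left_comm, ← add_smul]
    congr 2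
    push_cast; ring

lemma qT_psd {γ ν : ℝ} (hγ : γ ∈ Set.Icc (0 : ℝ) 1) (hν : ν ∈ Set.Icc (0 : ℝ) 1)
    {Ψ : Matrix d d ℂ → Matrix e e ℂ} (hΨ : IsCompletelyPositive Ψ)
    {ρ : Matrix (Bool × d) (Bool × d) ℂ} (hρ : ρ.PosSemidef) :
    (qubitTensor (gadMap γ ν) Ψ ρ).PosSemidef := by
  obtain ⟨N₀, N₁, c, hc0, hcd, -, -, -, h⟩ := gad_struct hγ hν hΨ hρ
  rw [← posSemidef_submatrix_equiv (Equiv.boolProdEquivSum e).symm, h]
  have hX := psd_of_cp hΨ (block_psd hρ false)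
  have hZ := psd_of_cp hΨ (block_psd hρ true)
  refine sig_psd _ _ (hZ.smul ?_) ((hX.smul ?_).add (hZ.smul ?_))
  · exact_mod_cast mul_nonneg hγ.1 (sub_nonneg.2 hν.2)
  · exact_mod_cast mul_nonneg hγ.1 hν.1
  · exact_mod_cast sub_nonneg.2 hcd

/-- **Output entropy bound.** -/
theorem gad_entropy {γ ν : ℝ} (hγ : γ ∈ Set.Icc (0 : ℝ) 1) (hν : ν ∈ Set.Icc (0 : ℝ) 1)
    {Ψ : Matrix d d ℂ → Matrix e e ℂ} (hΨ : IsChannel Ψ)
    {ρ : Matrix (Bool × d) (Bool × d) ℂ} (hρ : IsDensity ρ) :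
    fE γ ν (block ρ true true).trace.re +
      (vnEntropy (Ψ (block ρ false false)) - Real.negMulLog (block ρ false false).trace.re) +
      (vnEntropy (Ψ (block ρ true true)) - Real.negMulLog (block ρ true true).trace.re) ≤
      vnEntropy (qubitTensor (gadMap γ ν) Ψ ρ) := by
  obtain ⟨N₀, N₁, c, hc0, hcd, hac, h0, h1, h⟩ := gad_struct hγ hν hΨ.2.1 hρ.1
  have hX := psd_of_cp hΨ.2.1 (block_psd hρ.1 false)
  have hZ := psd_of_cp hΨ.2.1 (block_psd hρ.1 true)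
  rw [← hΨ.2.2 (block ρ false false), ← hΨ.2.2 (block ρ true true)]
  have hxz : (Ψ (block ρ false false)).trace.re + (Ψ (block ρ true true)).trace.re = 1 := by
    rw [hΨ.2.2, hΨ.2.2, ← Complex.add_re, ← trace_bool, hρ.2, Complex.one_re]
  set X := Ψ (block ρ false false)
  set Z := Ψ (block ρ true true)
  have hx := re_trace_nonneg hX
  have hz := re_trace_nonneg hZ
  obtain ⟨lp, lm, hlp, hlm, hsum, hprod, hf⟩ := fE_spec hγ hν (p := Z.trace.re) ⟨hz, by linarith⟩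
  have p1 : (0 : ℂ) ≤ ((γ * (1 - ν) : ℝ) : ℂ) := by
    exact_mod_cast mul_nonneg hγ.1 (sub_nonneg.2 hν.2)
  have p2 : (0 : ℂ) ≤ ((γ * ν : ℝ) : ℂ) := by exact_mod_cast mul_nonneg hγ.1 hν.1
  have p3 : (0 : ℂ) ≤ ((1 - γ + γ * ν - c : ℝ) : ℂ) := by exact_mod_cast sub_nonneg.2 hcd
  have tr : ∀ (r : ℝ) (A : Matrix e e ℂ), ((r : ℂ) • A).trace.re = r * A.trace.re := by
    intro r A; rw [trace_smul, smul_eq_mul, Complex.re_ofReal_mul]
  have key := key_ineq N₀ N₁ (hZ.smul p1) ((hX.smul p2).add (hZ.smul p3)) (lp := lp) (lm := lm)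
    (x₀ := (1 - γ * ν) * X.trace.re) (x₁ := c * Z.trace.re) (u₀ := γ * (1 - ν) * Z.trace.re)
    (u₁ := γ * ν * X.trace.re + (1 - γ + γ * ν - c) * Z.trace.re)
    (by rw [h0, tr]) (by rw [h1, tr]) (by rw [tr]) (by rw [trace_add, Complex.add_re, tr, tr])
    hlp hlm (by rw [hsum]; linarith) (by
      have e : X.trace.re = 1 - Z.trace.re := by linarith
      rw [hprod, e]; unfold vv
      linear_combination (Z.trace.re * (1 - Z.trace.re)) * hac)
  have sup := ent_superadd (hX.smul p2) (hZ.smul p3)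
  rw [tr, tr, ent_smul_sub hX.1, ent_smul_sub hZ.1] at sup
  rw [← h, ent_submatrix, h0, h1, ent_smul_sub hX.1, ent_smul_sub hZ.1, ent_smul_sub hZ.1] at key
  rw [hf]
  linarith

end Crest.Agent.R341
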