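import Crest.Agent.R341.Gad

/-! Holevo information bounds. -/

set_option autoImplicit false
set_option maxHeartbeats 400000
set_option linter.unusedSectionVars false
open Matrix Crest.Quantum Crest.MathPhysics.AmpDamp
open scoped ComplexOrder Kronecker

namespace Crest.Agent.R341

variable {d e : Type*} [Fintype d] [DecidableEq d] [Fintype e] [DecidableEq e]

/-- ensembles over any finite index type -/
def Ens {ι : Type*} [Fintype ι] (q : ι → ℝ) (ρ : ι → Matrix d d ℂ) : Prop :=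
  (∀ a, 0 ≤ q a) ∧ ∑ a, q a = 1 ∧ ∀ a, IsDensity (ρ a)

/-- Holevo information over any finite index type -/
noncomputable def hol {ι : Type*} [Fintype ι] (Φ : Matrix d d ℂ → Matrix e e ℂ) (q : ι → ℝ)
    (ρ : ι → Matrix d d ℂ) : ℝ :=
  vnEntropy (∑ a, (q a : ℂ) • Φ (ρ a)) - ∑ a, q a * vnEntropy (Φ (ρ a))

lemma to_fin {ι : Type*} [Fintype ι] (Φ : Matrix d d ℂ → Matrix e e ℂ) {q : ι → ℝ}
    {ρ : ι → Matrix d d ℂ} (h : Ens q ρ) :
    ∃ (m : ℕ) (q' : Fin m → ℝ) (ρ' : Fin m → Matrix d d ℂ), IsEnsemble q' ρ' ∧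
      holevoInfo Φ q' ρ' = hol Φ q ρ := by
  let φ := (Fintype.equivFin ι).symm
  refine ⟨_, q ∘ φ, ρ ∘ φ, ⟨fun a => h.1 _, ?_, fun a => h.2.2 _⟩, ?_⟩
  · rw [← h.2.1]; exact Equiv.sum_comp φ q
  · unfold holevoInfo hol
    rw [← Equiv.sum_comp φ (fun a => (q a : ℂ) • Φ (ρ a)),
      ← Equiv.sum_comp φ (fun a => q a * vnEntropy (Φ (ρ a)))]
    rfl

lemma exists_normalise [Nonempty d] {A : Matrix d d ℂ} (hA : A.PosSemidef) :
    ∃ A' : Matrix d d ℂ, IsDensity A' ∧ A = ((A.trace.re : ℝ) : ℂ) • A' := by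
  rcases (re_trace_nonneg hA).eq_or_lt with h | h
  · have h0 : A = 0 := by
      rw [← hA.trace_eq_zero_iff, trace_eq_re hA, ← h]; simp
    obtain ⟨i⟩ := ‹Nonempty d›
    refine ⟨dg (Pi.single i 1), ⟨dg_psd fun j => ?_, ?_⟩, by rw [← h, h0]; simp⟩
    · by_cases hj : j = i <;> simp [hj]
    · simp [dg, Pi.single_apply, apply_ite]
  · refine ⟨((A.trace.re⁻¹ : ℝ) : ℂ) • A, ⟨hA.smul ?_, ?_⟩, ?_⟩
    · exact_mod_cast (inv_pos.2 h).le
    · rw [trace_smul, smul_eq_mul]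
      conv_lhs => rw [trace_eq_re hA]
      simp only [Complex.ofReal_re]
      exact_mod_cast inv_mul_cancel₀ h.ne'
    · rw [smul_smul, ← Complex.ofReal_mul, mul_inv_cancel₀ h.ne']; simp

lemma chan_density {Ψ : Matrix d d ℂ → Matrix e e ℂ} (hΨ : IsChannel Ψ) {ρ : Matrix d d ℂ}
    (hρ : IsDensity ρ) : IsDensity (Ψ ρ) :=
  ⟨psd_of_cp hΨ.2.1 hρ.1, by rw [hΨ.2.2, hρ.2]⟩

lemma ent_normalised {Ψ : Matrix d d ℂ → Matrix e e ℂ} (hΨ : IsChannel Ψ) {A' : Matrix d d ℂ}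
    (h : IsDensity A') (t : ℝ) :
    vnEntropy (Ψ ((t : ℂ) • A')) - Real.negMulLog t = t * vnEntropy (Ψ A') := by
  have h1 := chan_density hΨ h
  rw [hΨ.1.map_smul, ent_smul h1.1.1, h1.2]; simp

lemma block_sum {ι k : Type*} [Fintype ι] (c : ι → ℂ) (M : ι → Matrix (k × d) (k × d) ℂ)
    (s t : k) : block (∑ a, c a • M a) s t = ∑ a, c a • block (M a) s t := by
  ext i j
  simp [block, Matrix.sum_apply]

/-- **Upper bound** on the Holevo information of the product channel. -/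
theorem hol_upper [Nonempty d] {γ ν : ℝ} (hγ : γ ∈ Set.Icc (0 : ℝ) 1) (hν : ν ∈ Set.Icc (0 : ℝ) 1)
    {Ψ : Matrix d d ℂ → Matrix e e ℂ} (hΨ : IsChannel Ψ) {ι : Type*} [Fintype ι] {q : ι → ℝ}
    {ρ : ι → Matrix (Bool × d) (Bool × d) ℂ} (h : Ens q ρ) :
    ∃ (p : ι → ℝ) (q₂ : ι × Bool → ℝ) (ρ₂ : ι × Bool → Matrix d d ℂ),
      (∀ a, p a ∈ Set.Icc (0 : ℝ) 1) ∧ Ens q₂ ρ₂ ∧
      hol (qubitTensor (gadMap γ ν) Ψ) q ρ ≤
        (Real.binEntropy ((1 - γ) * ∑ a, q a * p a + γ * ν) - ∑ a, q a * fE γ ν (p a)) +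
          hol Ψ q₂ ρ₂ := by
  obtain ⟨hq, hq1, hρ⟩ := h
  choose r hr hre using fun x : ι × Bool => exists_normalise (block_psd (hρ x.1).1 x.2)
  set t : ι → Bool → ℝ := fun a s => (block (ρ a) s s).trace.re with ht
  have ht0 : ∀ a s, 0 ≤ t a s := fun a s => re_trace_nonneg (block_psd (hρ a).1 s)
  have ht1 : ∀ a, t a false + t a true = 1 := fun a => by
    simp only [ht]; rw [← Complex.add_re, ← trace_bool, (hρ a).2, Complex.one_re]
  have hre' : ∀ a s, block (ρ a) s s = (t a s : ℂ) • r (a, s) := fun a s => hre (a, s)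
  refine ⟨fun a => t a true, fun x => q x.1 * t x.1 x.2, r,
    fun a => ⟨ht0 _ _, by linarith [ht1 a, ht0 a false]⟩,
    ⟨fun x => mul_nonneg (hq _) (ht0 _ _), ?_, hr⟩, ?_⟩
  · rw [Fintype.sum_prod_type, ← hq1]
    refine Finset.sum_congr rfl fun a _ => ?_
    simp only [Fintype.sum_bool]
    rw [← mul_add, add_comm, ht1, mul_one]
  unfold hol
  -- the output entropies
  have h1 : ∑ a, q a * fE γ ν (t a true) + ∑ x : ι × Bool, q x.1 * t x.1 x.2 * vnEntropy (Ψ (r x)) ≤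
      ∑ a, q a * vnEntropy (qubitTensor (gadMap γ ν) Ψ (ρ a)) := by
    rw [Fintype.sum_prod_type, ← Finset.sum_add_distrib]
    refine Finset.sum_le_sum fun a _ => ?_
    have := gad_entropy hγ hν hΨ (hρ a)
    change fE γ ν (t a true) + (vnEntropy (Ψ (block (ρ a) false false)) - Real.negMulLog (t a false))
      + (vnEntropy (Ψ (block (ρ a) true true)) - Real.negMulLog (t a true)) ≤ _ at this
    rw [hre', hre', ent_normalised hΨ (hr _), ent_normalised hΨ (hr _)] at this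
    have h2 := mul_le_mul_of_nonneg_left this (hq a)
    rw [Fintype.sum_bool]
    linarith
  -- the entropy of the average
  set Mb := ∑ a, (q a : ℂ) • qubitTensor (gadMap γ ν) Ψ (ρ a) with hMb
  have hMp : Mb.PosSemidef := posSemidef_sum _ fun a _ =>
    (qT_psd hγ hν hΨ.2.1 (hρ a).1).smul (by exact_mod_cast hq a)
  have h2 : vnEntropy Mb ≤ vnEntropy (block Mb false false) + vnEntropy (block Mb true true) := by
    rw [← ent_submatrix (Equiv.boolProdEquivSum e).symm, sub_bool]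
    refine ent_pinch ?_
    rw [← sub_bool]; exact hMp.submatrix _
  have h3 := ent_superadd (block_psd hMp false) (block_psd hMp true)
  have h4 : block Mb false false + block Mb true true =
      ∑ x : ι × Bool, ((q x.1 * t x.1 x.2 : ℝ) : ℂ) • Ψ (r x) := by
    rw [hMb, block_sum, block_sum, ← Finset.sum_add_distrib, Fintype.sum_prod_type]
    refine Finset.sum_congr rfl fun a _ => ?_
    rw [qT_ff, qT_tt, hre', hre', hΨ.1.map_smul, hΨ.1.map_smul, Fintype.sum_bool]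
    push_cast
    module
  have htr : ∀ a s, (Ψ (block (ρ a) s s)).trace = (t a s : ℂ) := fun a s => by
    rw [hΨ.2.2]; exact trace_eq_re (block_psd (hρ a).1 s)
  have h5 : (block Mb true true).trace.re = (1 - γ) * ∑ a, q a * t a true + γ * ν := by
    have : (block Mb true true).trace = ((∑ a, q a * ((1 - γ) * t a true + γ * ν) : ℝ) : ℂ) := by
      rw [hMb, block_sum, trace_sum, Complex.ofReal_sum]
      refine Finset.sum_congr rfl fun a _ => ?_
      rw [qT_tt, trace_smul, trace_add, trace_smul, trace_smul, htr, htr,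
        show t a false = 1 - t a true by linarith [ht1 a]]
      simp only [smul_eq_mul]; push_cast; ring
    rw [this, Complex.ofReal_re]
    simp only [mul_add, Finset.sum_add_distrib, ← Finset.sum_mul, hq1, Finset.mul_sum]
    congr 1
    · exact Finset.sum_congr rfl fun a _ => by ring
    · ring
  have h6 : (block Mb false false).trace.re = 1 - ((1 - γ) * ∑ a, q a * t a true + γ * ν) := by
    have : (block Mb false false).trace =
        ((∑ a, q a * (1 - ((1 - γ) * t a true + γ * ν)) : ℝ) : ℂ) := by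
      rw [hMb, block_sum, trace_sum, Complex.ofReal_sum]
      refine Finset.sum_congr rfl fun a _ => ?_
      rw [qT_ff, trace_smul, trace_add, trace_smul, trace_smul, htr, htr,
        show t a false = 1 - t a true by linarith [ht1 a]]
      simp only [smul_eq_mul]; push_cast; ring
    rw [this, Complex.ofReal_re]
    simp only [mul_add, mul_sub, Finset.sum_add_distrib, Finset.sum_sub_distrib, ← Finset.sum_mul,
      hq1, Finset.mul_sum]
    congr 1
    · ring
    congr 1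
    · exact Finset.sum_congr rfl fun a _ => by ring
    · ring
  rw [h4, h5, h6, sub_add_cancel, Real.negMulLog_one] at h3
  rw [Real.binEntropy_eq_negMulLog_add_negMulLog_one_sub]
  linarith

/-! ### The qubit ensemble -/

open Polynomial in
lemma ent_two {A : Matrix Bool Bool ℂ} (hA : A.IsHermitian) {lp lm : ℝ}
    (h1 : A false false + A true true = ((lp + lm : ℝ) : ℂ))
    (h2 : A false false * A true true - A false true * A true false = ((lp * lm : ℝ) : ℂ)) :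
    vnEntropy A = Real.negMulLog lp + Real.negMulLog lm := by
  have hdet : A.det = A false false * A true true - A false true * A true false := by
    rw [← det_submatrix_equiv_self finTwoEquiv, det_fin_two]; rfl
  have htr : A.trace = A false false + A true true := by simp [trace, add_comm]
  rw [ent_of_charpoly hA ![lp, lm]]
  · simp
  · rw [charpoly_of_card_eq_two A (by simp), hdet, htr, h1, h2]
    simp; ring

/-- pure qubit state with population `p` and real coherence of sign `ε` -/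
noncomputable def psi (p ε : ℝ) : Matrix Bool Bool ℂ :=
  vecMulVec (fun s => if s then ((ε * Real.sqrt p : ℝ) : ℂ) else ((Real.sqrt (1 - p) : ℝ) : ℂ))
    (star fun s => if s then ((ε * Real.sqrt p : ℝ) : ℂ) else ((Real.sqrt (1 - p) : ℝ) : ℂ))

lemma psi_entries {p ε : ℝ} (hp : p ∈ Set.Icc (0 : ℝ) 1) (hε : ε ^ 2 = 1) :
    psi p ε false false = ((1 - p : ℝ) : ℂ) ∧ psi p ε true true = (p : ℂ) ∧
      psi p ε false true = ((ε * (Real.sqrt p * Real.sqrt (1 - p)) : ℝ) : ℂ) ∧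
      psi p ε true false = ((ε * (Real.sqrt p * Real.sqrt (1 - p)) : ℝ) : ℂ) := by
  have h1 := Real.mul_self_sqrt hp.1
  have h2 := Real.mul_self_sqrt (sub_nonneg.2 hp.2)
  simp only [psi, vecMulVec_apply, Pi.star_apply, Complex.star_def, Complex.conj_ofReal,
    ← Complex.ofReal_mul, if_true, Bool.false_eq_true, if_false, Complex.ofReal_inj]
  refine ⟨h2, ?_, by ring, by ring⟩
  linear_combination p * hε + ε ^ 2 * h1

lemma psi_density {p ε : ℝ} (hp : p ∈ Set.Icc (0 : ℝ) 1) (hε : ε ^ 2 = 1) :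
    IsDensity (psi p ε) := by
  refine ⟨posSemidef_vecMulVec_self_star _, ?_⟩
  obtain ⟨h1, h2, -, -⟩ := psi_entries hp hε
  simp [trace, h1, h2]

lemma gad_herm (γ ν : ℝ) {A : Matrix Bool Bool ℂ} (hA : A.IsHermitian) :
    (gadMap γ ν A).IsHermitian := by
  ext s t
  have h : ∀ s t, (starRingEnd ℂ) (A s t) = A t s := fun s t => hA.apply t s
  cases s <;> cases t <;> simp [gadMap, h]

lemma gad_trace (γ ν : ℝ) (A : Matrix Bool Bool ℂ) : (gadMap γ ν A).trace = A.trace := by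
  simp [trace, gadMap]; ring

lemma ent_gad_psi {γ ν p ε : ℝ} (hγ : γ ∈ Set.Icc (0 : ℝ) 1) (hν : ν ∈ Set.Icc (0 : ℝ) 1)
    (hp : p ∈ Set.Icc (0 : ℝ) 1) (hε : ε ^ 2 = 1) :
    vnEntropy (gadMap γ ν (psi p ε)) = fE γ ν p := by
  obtain ⟨lp, lm, -, -, hsum, hprod, hf⟩ := fE_spec hγ hν hp
  obtain ⟨h1, h2, h3, h4⟩ := psi_entries hp hε
  rw [hf]
  refine ent_two (gad_herm γ ν (psi_density hp hε).1.1) ?_ ?_
  · rw [hsum]; simp [gadMap, h1, h2]; ring
  · have e1 := Real.mul_self_sqrt hp.1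
    have e2 := Real.mul_self_sqrt (sub_nonneg.2 hp.2)
    have e3 := Real.mul_self_sqrt (sub_nonneg.2 hγ.2)
    rw [hprod]
    simp only [gadMap, of_apply, h1, h2, h3, h4, and_self, if_true, Bool.false_eq_true,
      Bool.true_eq_false, if_false, and_false, false_and, ← Complex.ofReal_mul,
      ← Complex.ofReal_add, ← Complex.ofReal_sub, Complex.ofReal_inj]
    have e4 : √(1 - γ) * (ε * (√p * √(1 - p))) * (√(1 - γ) * (ε * (√p * √(1 - p)))) =
        (√(1 - γ) * √(1 - γ)) * ε ^ 2 * (√p * √p) * (√(1 - p) * √(1 - p)) := by ring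
    rw [e4, e1, e2, e3, hε]
    unfold vv; ring

theorem hol_qubit {γ ν : ℝ} (hγ : γ ∈ Set.Icc (0 : ℝ) 1) (hν : ν ∈ Set.Icc (0 : ℝ) 1)
    {ι : Type*} [Fintype ι] {q p : ι → ℝ} (hq : ∀ a, 0 ≤ q a) (hq1 : ∑ a, q a = 1)
    (hp : ∀ a, p a ∈ Set.Icc (0 : ℝ) 1) :
    ∃ (q₁ : ι × Bool → ℝ) (ρ₁ : ι × Bool → Matrix Bool Bool ℂ), Ens q₁ ρ₁ ∧
      hol (gadMap γ ν) q₁ ρ₁ =
        Real.binEntropy ((1 - γ) * ∑ a, q a * p a + γ * ν) - ∑ a, q a * fE γ ν (p a) := by
  have hε : ∀ s : Bool, (if s then (1 : ℝ) else -1) ^ 2 = 1 := by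
    intro s; cases s <;> simp
  refine ⟨fun x => q x.1 / 2, fun x => psi (p x.1) (if x.2 then 1 else -1),
    ⟨fun x => by have := hq x.1; positivity, ?_, fun x => psi_density (hp _) (hε _)⟩, ?_⟩
  · rw [Fintype.sum_prod_type, ← hq1]
    exact Finset.sum_congr rfl fun a _ => by simp; ring
  unfold hol
  congr 1
  · set P := (1 - γ) * ∑ a, q a * p a + γ * ν with hP
    have e : ∑ x : ι × Bool, ((q x.1 / 2 : ℝ) : ℂ) •
        gadMap γ ν (psi (p x.1) (if x.2 then 1 else -1)) = dg fun s => if s then P else 1 - P := by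
      have eP : P = ∑ a, q a * ((1 - γ) * p a + γ * ν) := by
        simp only [hP, mul_add, Finset.sum_add_distrib, ← Finset.sum_mul, hq1, Finset.mul_sum]
        congr 1
        · exact Finset.sum_congr rfl fun a _ => by ring
        · ring
      have eP' : 1 - P = ∑ a, q a * (1 - ((1 - γ) * p a + γ * ν)) := by
        simp only [mul_sub (q _), Finset.sum_sub_distrib, ← eP, mul_one, hq1]
      have a1 := fun a => psi_entries (hp a) (hε true)
      have a2 := fun a => psi_entries (hp a) (hε false)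
      simp only [if_true, Bool.false_eq_true, if_false] at a1 a2
      ext s t
      rw [Matrix.sum_apply, Fintype.sum_prod_type]
      simp only [Fintype.sum_bool, if_true, Bool.false_eq_true, if_false, Matrix.smul_apply,
        smul_eq_mul]
      cases s <;> cases t
      · simp only [dg, diagonal_apply_eq, Bool.false_eq_true, if_false, eP', Complex.ofReal_sum]
        refine Finset.sum_congr rfl fun a _ => ?_
        simp [gadMap, a1, a2]; ring
      · simp only [dg]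
        rw [diagonal_apply_ne _ (by simp)]
        refine Finset.sum_eq_zero fun a _ => ?_
        simp [gadMap, a1, a2]
      · simp only [dg]
        rw [diagonal_apply_ne _ (by simp)]
        refine Finset.sum_eq_zero fun a _ => ?_
        simp [gadMap, a1, a2]
      · simp only [dg, diagonal_apply_eq, if_true]
        rw [eP, Complex.ofReal_sum]
        refine Finset.sum_congr rfl fun a _ => ?_
        simp [gadMap, a1, a2]; ring
    rw [e, Real.binEntropy_eq_negMulLog_add_negMulLog_one_sub]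
    refine ent_two (dg_herm _) ?_ ?_
    · simp [dg]
    · simp [dg]; ring
  · rw [Fintype.sum_prod_type]
    refine Finset.sum_congr rfl fun a _ => ?_
    simp only [ent_gad_psi hγ hν (hp a) (hε _)]
    simp; ring

/-! ### Product inputs -/

lemma qT_kron (γ ν : ℝ) {Ψ : Matrix d d ℂ → Matrix e e ℂ} (hΨ : IsLinearMap ℂ Ψ)
    (A : Matrix Bool Bool ℂ) (C : Matrix d d ℂ) :
    qubitTensor (gadMap γ ν) Ψ (A ⊗ₖ C) = gadMap γ ν A ⊗ₖ Ψ C := by
  have hb : ∀ s t, block (A ⊗ₖ C) s t = A s t • C := fun s t => by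
    ext i j; simp [block]
  ext ⟨s, i⟩ ⟨t, j⟩
  simp only [qubitTensor, of_apply, hb, hΨ.map_smul]
  cases s <;> cases t <;> simp [qubitCoeff, gadMap] <;> ring

lemma kron_density {A : Matrix Bool Bool ℂ} {C : Matrix d d ℂ} (hA : IsDensity A)
    (hC : IsDensity C) : IsDensity (A ⊗ₖ C) :=
  ⟨hA.1.kronecker hC.1, by rw [trace_kronecker, hA.2, hC.2, one_mul]⟩

lemma ent_qT_kron (γ ν : ℝ) {Ψ : Matrix d d ℂ → Matrix e e ℂ} (hΨ : IsChannel Ψ)
    {A : Matrix Bool Bool ℂ} {C : Matrix d d ℂ} (hA : IsDensity A) (hC : IsDensity C) :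
    vnEntropy (qubitTensor (gadMap γ ν) Ψ (A ⊗ₖ C)) =
      vnEntropy (gadMap γ ν A) + vnEntropy (Ψ C) := by
  have h := chan_density hΨ hC
  rw [qT_kron γ ν hΨ.1, ent_kron (gad_herm γ ν hA.1.1) h.1.1, h.2, gad_trace, hA.2]
  simp

theorem hol_product (γ ν : ℝ) {Ψ : Matrix d d ℂ → Matrix e e ℂ} (hΨ : IsChannel Ψ)
    {ι κ : Type*} [Fintype ι] [Fintype κ] {q₁ : ι → ℝ} {ρ₁ : ι → Matrix Bool Bool ℂ}
    {q₂ : κ → ℝ} {ρ₂ : κ → Matrix d d ℂ} (h₁ : Ens q₁ ρ₁) (h₂ : Ens q₂ ρ₂) :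
    ∃ (q : ι × κ → ℝ) (ρ : ι × κ → Matrix (Bool × d) (Bool × d) ℂ), Ens q ρ ∧
      hol (qubitTensor (gadMap γ ν) Ψ) q ρ = hol (gadMap γ ν) q₁ ρ₁ + hol Ψ q₂ ρ₂ := by
  refine ⟨fun x => q₁ x.1 * q₂ x.2, fun x => ρ₁ x.1 ⊗ₖ ρ₂ x.2,
    ⟨fun x => mul_nonneg (h₁.1 _) (h₂.1 _), ?_, fun x => kron_density (h₁.2.2 _) (h₂.2.2 _)⟩, ?_⟩
  · rw [Fintype.sum_prod_type]
    simp only [← Finset.mul_sum, h₂.2.1, mul_one, h₁.2.1]
  unfold hol
  have e1 : ∑ x : ι × κ, ((q₁ x.1 * q₂ x.2 : ℝ) : ℂ) •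
      qubitTensor (gadMap γ ν) Ψ (ρ₁ x.1 ⊗ₖ ρ₂ x.2) =
      (∑ a, (q₁ a : ℂ) • gadMap γ ν (ρ₁ a)) ⊗ₖ (∑ b, (q₂ b : ℂ) • Ψ (ρ₂ b)) := by
    simp only [qT_kron γ ν hΨ.1]
    ext ⟨s, i⟩ ⟨t, j⟩
    simp only [Matrix.sum_apply, kroneckerMap_apply, Matrix.smul_apply, smul_eq_mul,
      Fintype.sum_prod_type, Finset.sum_mul_sum]
    refine Finset.sum_congr rfl fun a _ => Finset.sum_congr rfl fun b _ => ?_
    push_cast; ring
  have hA : (∑ a, (q₁ a : ℂ) • gadMap γ ν (ρ₁ a)).IsHermitian := by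
    unfold IsHermitian
    rw [conjTranspose_sum]
    refine Finset.sum_congr rfl fun a _ => ?_
    rw [conjTranspose_smul, (gad_herm γ ν (h₁.2.2 a).1.1).eq]; simp
  have hB : (∑ b, (q₂ b : ℂ) • Ψ (ρ₂ b)).IsHermitian :=
    (posSemidef_sum _ fun b _ =>
      (chan_density hΨ (h₂.2.2 b)).1.smul (by exact_mod_cast h₂.1 b)).1
  have tA : (∑ a, (q₁ a : ℂ) • gadMap γ ν (ρ₁ a)).trace.re = 1 := by
    simp only [trace_sum, trace_smul, gad_trace, (h₁.2.2 _).2, smul_eq_mul, mul_one,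
      ← Complex.ofReal_sum, h₁.2.1, Complex.ofReal_re]
  have tB : (∑ b, (q₂ b : ℂ) • Ψ (ρ₂ b)).trace.re = 1 := by
    simp only [trace_sum, trace_smul, (chan_density hΨ (h₂.2.2 _)).2, smul_eq_mul, mul_one,
      ← Complex.ofReal_sum, h₂.2.1, Complex.ofReal_re]
  rw [e1, ent_kron hA hB, tA, tB]
  simp only [ent_qT_kron γ ν hΨ (h₁.2.2 _) (h₂.2.2 _), Fintype.sum_prod_type, mul_add,
    Finset.sum_add_distrib]
  have e2 : ∑ a, ∑ b, q₁ a * q₂ b * vnEntropy (gadMap γ ν (ρ₁ a)) =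
      ∑ a, q₁ a * vnEntropy (gadMap γ ν (ρ₁ a)) := by
    refine Finset.sum_congr rfl fun a _ => ?_
    rw [← Finset.sum_mul, ← Finset.mul_sum, h₂.2.1, mul_one]
  have e3 : ∑ a, ∑ b, q₁ a * q₂ b * vnEntropy (Ψ (ρ₂ b)) = ∑ b, q₂ b * vnEntropy (Ψ (ρ₂ b)) := by
    simp only [mul_assoc, ← Finset.mul_sum, ← Finset.sum_mul, h₁.2.1, one_mul]
  rw [e2, e3]; ring

theorem min_upper [Nonempty d] {γ ν : ℝ} (hγ : γ ∈ Set.Icc (0 : ℝ) 1) (hν : ν ∈ Set.Icc (0 : ℝ) 1)
    {Ψ : Matrix d d ℂ → Matrix e e ℂ} (hΨ : IsChannel Ψ) {ρ : Matrix (Bool × d) (Bool × d) ℂ}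
    (hρ : IsDensity ρ) : ∃ (ρ₁ : Matrix Bool Bool ℂ) (ρ₂ : Matrix d d ℂ), IsDensity ρ₁ ∧
      IsDensity ρ₂ ∧ vnEntropy (gadMap γ ν ρ₁) + vnEntropy (Ψ ρ₂) ≤
        vnEntropy (qubitTensor (gadMap γ ν) Ψ ρ) := by
  obtain ⟨A, hA, hAe⟩ := exists_normalise (block_psd hρ.1 false)
  obtain ⟨C, hC, hCe⟩ := exists_normalise (block_psd hρ.1 true)
  have h := gad_entropy hγ hν hΨ hρ
  have hx := re_trace_nonneg (block_psd hρ.1 false)
  have hz := re_trace_nonneg (block_psd hρ.1 true)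
  have hxz : (block ρ false false).trace.re + (block ρ true true).trace.re = 1 := by
    rw [← Complex.add_re, ← trace_bool, hρ.2, Complex.one_re]
  set x := (block ρ false false).trace.re
  set z := (block ρ true true).trace.re
  rw [hAe, hCe, ent_normalised hΨ hA, ent_normalised hΨ hC] at h
  have hp : z ∈ Set.Icc (0 : ℝ) 1 := ⟨hz, by linarith⟩
  have h1 : (1 : ℝ) ^ 2 = 1 := one_pow 2
  have e : x = 1 - z := by linarith
  rcases le_total (vnEntropy (Ψ A)) (vnEntropy (Ψ C)) with hle | hle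
  · refine ⟨psi z 1, A, psi_density hp h1, hA, ?_⟩
    rw [ent_gad_psi hγ hν hp h1]
    have := mul_le_mul_of_nonneg_left hle hz
    rw [e] at h; linarith
  · refine ⟨psi z 1, C, psi_density hp h1, hC, ?_⟩
    rw [ent_gad_psi hγ hν hp h1]
    have := mul_le_mul_of_nonneg_left hle hx
    rw [e] at h this; linarith

end Crest.Agent.R341
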