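import Crest.Agent.R341.Count
import Crest.Agent.R341.Ana

/-! The key entropy inequality and its corollaries. -/

set_option autoImplicit false
set_option maxHeartbeats 400000
open Matrix Crest.Quantum MeasureTheory
open scoped ComplexOrder

namespace Crest.Agent.R341

variable {B E : Type*} [Fintype B] [DecidableEq B] [Fintype E] [DecidableEq E]

lemma nonneg_of_sp_psd {V : Matrix B B ℂ} (hV : Vᴴ * V = 1) {f : B → ℝ} (h : (sp V f).PosSemidef)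
    (k : B) : 0 ≤ f k := by
  have := qf_nonneg h (V *ᵥ Pi.single k 1)
  rw [qf_sp, mulVec_mulVec, hV, one_mulVec, Finset.sum_eq_single k] at this
  · simpa using this
  · intro i _ hi; simp [hi]
  · simp

lemma arm_mat (N : Matrix B E ℂ) {U W Y : Matrix B B ℂ} {ξ υ : B → ℝ} (hW : Wᴴ * W = 1)
    (hY : Yᴴ * Y = 1) (hξ : ∀ k, 0 ≤ ξ k) (hυ : ∀ k, 0 ≤ υ k) (hX : N * Nᴴ = sp W ξ)
    (hU : U = sp Y υ) (S : ℝ) {t : ℝ} (ht : 0 < t) :
    ∃ μ : B → ℝ, (∀ k, μ k ≤ S) ∧ ∑ k, μ k = Tf ξ (∑ k, υ k) S t ∧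
      ∀ s : ℝ, 0 < s → ∀ (V : Matrix E E ℂ) (l : E → ℝ), Vᴴ * V = 1 →
        Nᴴ * ((s : ℂ) • (1 : Matrix B B ℂ) + U)⁻¹ * N = sp V l → 0 < ∑ k, ξ k →
        (Finset.univ.filter fun k => s ≤ μ k).card ≤
          (Finset.univ.filter fun k => th (∑ k, ξ k) (∑ k, υ k) t ≤ l k).card := by
  have hUp : U.PosSemidef := hU ▸ sp_psd Y hυ
  have hu : 0 ≤ ∑ k, υ k := Finset.sum_nonneg fun i _ => hυ i
  set c : B → ℝ := fun k => min ((t + ∑ k, υ k) * ξ k / ∑ i, ξ i) S with hc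
  have hH : (sp W c - U).IsHermitian := (sp_herm W c).sub hUp.1
  obtain ⟨Z, hZ, hZe⟩ := exists_sp hH
  set μ := hH.eigenvalues
  refine ⟨μ, fun k => ?_, ?_, fun s hs V l hV hA hx => ?_⟩
  · have h1 : (sp Z ((fun _ => S) - μ)).PosSemidef := by
      rw [sp_sub, ← hZe, sp_const hZ, ← sp_const hW, ← sub_add, ← sp_sub]
      exact (sp_psd W fun k => by simp [hc]).add hUp
    simpa using nonneg_of_sp_psd hZ h1 k
  · have h1 := congrArg (fun M => (trace M).re) hZe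
    simp only [trace_sub, trace_sp hZ, trace_sp hW, hU, trace_sp hY, Complex.sub_re,
      Complex.ofReal_re] at h1
    rw [← h1]; rfl
  · have hth : 0 < th (∑ k, ξ k) (∑ k, υ k) t := by unfold th; positivity
    refine count_le N hUp hs hth ?_ hZ hV hZe hA
    rw [hX, ← sp_smul, ← sp_sub]
    refine sp_psd W fun k => ?_
    have : th (∑ k, ξ k) (∑ k, υ k) t * c k ≤ ξ k := by
      calc _ ≤ th (∑ k, ξ k) (∑ k, υ k) t * ((t + ∑ k, υ k) * ξ k / ∑ i, ξ i) := by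
            gcongr; exact min_le_left _ _
        _ = ξ k := by unfold th; field_simp
    simpa using this

lemma LD_shift {Z : Matrix B B ℂ} (hZ : Zᴴ * Z = 1) {f : B → ℝ} (hf : ∀ k, 0 ≤ f k) {s : ℝ}
    (hs : 0 < s) : LD ((s : ℂ) • (1 : Matrix B B ℂ) + sp Z f) = ∑ k, Real.log (s + f k) := by
  rw [← sp_const hZ, ← sp_add, LD_sp hZ (fun k => by have := hf k; simp only [Pi.add_apply]; positivity)]
  rfl

lemma ell_th_zero (u t t' : ℝ) {b : ℝ} (hb : 0 ≤ b) : ell (th 0 u t) (th 0 u t') b = 0 := by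
  unfold ell th
  rw [zero_div, zero_div, div_self (by positivity), Real.log_one]

omit [DecidableEq E] in
lemma sig_psd (N₀ N₁ : Matrix B E ℂ) {U₀ U₁ : Matrix B B ℂ} (h₀ : U₀.PosSemidef)
    (h₁ : U₁.PosSemidef) :
    (fromBlocks (N₀ * N₀ᴴ + U₀) (N₀ * N₁ᴴ) (N₁ * N₀ᴴ) (N₁ * N₁ᴴ + U₁)).PosSemidef := by
  have e : fromBlocks (N₀ * N₀ᴴ + U₀) (N₀ * N₁ᴴ) (N₁ * N₀ᴴ) (N₁ * N₁ᴴ + U₁) =
      fromRows N₀ N₁ * (fromRows N₀ N₁)ᴴ +
        fromRows (1 : Matrix B B ℂ) (0 : Matrix B B ℂ) * U₀ *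
          (fromRows (1 : Matrix B B ℂ) (0 : Matrix B B ℂ))ᴴ +
        fromRows (0 : Matrix B B ℂ) (1 : Matrix B B ℂ) * U₁ *
          (fromRows (0 : Matrix B B ℂ) (1 : Matrix B B ℂ))ᴴ := by
    simp only [conjTranspose_fromRows_eq_fromCols_conjTranspose]
    rw [fromRows_mul 1 0 U₀, fromRows_mul 0 1 U₁]
    simp only [fromRows_mul_fromCols, fromBlocks_add]
    simp
  rw [e]
  exact ((posSemidef_self_mul_conjTranspose _).add (h₀.mul_mul_conjTranspose_same _)).add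
    (h₁.mul_mul_conjTranspose_same _)

/-- **The key inequality.** -/
theorem key_ineq (N₀ N₁ : Matrix B E ℂ) {U₀ U₁ : Matrix B B ℂ} (h₀ : U₀.PosSemidef)
    (h₁ : U₁.PosSemidef) {lp lm x₀ x₁ u₀ u₁ : ℝ} (hx₀ : x₀ = (N₀ * N₀ᴴ).trace.re)
    (hx₁ : x₁ = (N₁ * N₁ᴴ).trace.re) (hu₀ : u₀ = U₀.trace.re) (hu₁ : u₁ = U₁.trace.re)
    (hlp : 0 ≤ lp) (hlm : 0 ≤ lm) (hsum : lp + lm = x₀ + x₁ + u₀ + u₁)
    (hprod : lp * lm = x₀ * u₁ + x₁ * u₀ + u₀ * u₁) :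
    Real.negMulLog lp + Real.negMulLog lm +
      (vnEntropy (N₀ * N₀ᴴ) - Real.negMulLog x₀) + (vnEntropy (N₁ * N₁ᴴ) - Real.negMulLog x₁) +
      (vnEntropy U₀ - Real.negMulLog u₀) + (vnEntropy U₁ - Real.negMulLog u₁) ≤
      vnEntropy (fromBlocks (N₀ * N₀ᴴ + U₀) (N₀ * N₁ᴴ) (N₁ * N₀ᴴ) (N₁ * N₁ᴴ + U₁)) := by
  have hSig := sig_psd N₀ N₁ h₀ h₁
  obtain ⟨Z, lam, hZ, hlam, hZe⟩ := exists_sp_psd hSig
  obtain ⟨W₀, ξ₀, hW₀, hξ₀, hX₀⟩ := exists_sp_psd (posSemidef_self_mul_conjTranspose N₀)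
  obtain ⟨W₁, ξ₁, hW₁, hξ₁, hX₁⟩ := exists_sp_psd (posSemidef_self_mul_conjTranspose N₁)
  obtain ⟨Y₀, υ₀, hY₀, hυ₀, hU₀⟩ := exists_sp_psd h₀
  obtain ⟨Y₁, υ₁, hY₁, hυ₁, hU₁⟩ := exists_sp_psd h₁
  have ex₀ : x₀ = ∑ k, ξ₀ k := by rw [hx₀, hX₀, trace_sp hW₀, Complex.ofReal_re]
  have ex₁ : x₁ = ∑ k, ξ₁ k := by rw [hx₁, hX₁, trace_sp hW₁, Complex.ofReal_re]
  have eu₀ : u₀ = ∑ k, υ₀ k := by rw [hu₀, hU₀, trace_sp hY₀, Complex.ofReal_re]
  have eu₁ : u₁ = ∑ k, υ₁ k := by rw [hu₁, hU₁, trace_sp hY₁, Complex.ofReal_re]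
  have htr : ∑ k, lam k = ∑ k, ξ₀ k + ∑ k, ξ₁ k + ∑ k, υ₀ k + ∑ k, υ₁ k := by
    have h1 := congrArg (fun M => (trace M).re) hZe
    simp only [trace_sp hZ, Complex.ofReal_re] at h1
    rw [← h1, ← ex₀, ← ex₁, ← eu₀, ← eu₁, hx₀, hx₁, hu₀, hu₁]
    simp only [trace, diag, Fintype.sum_sum_type, fromBlocks_apply₁₁, fromBlocks_apply₂₂,
      Matrix.add_apply, Finset.sum_add_distrib, Complex.add_re]
    ring
  have e1 : vnEntropy (N₀ * N₀ᴴ) = _ := hX₀ ▸ ent_sp hW₀ ξ₀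
  have e2 : vnEntropy (N₁ * N₁ᴴ) = _ := hX₁ ▸ ent_sp hW₁ ξ₁
  have e3 : vnEntropy U₀ = _ := hU₀ ▸ ent_sp hY₀ υ₀
  have e4 : vnEntropy U₁ = _ := hU₁ ▸ ent_sp hY₁ υ₁
  rw [e1, e2, e3, e4, hZe, ent_sp hZ, ex₀, ex₁, eu₀, eu₁]
  rw [ex₀, ex₁, eu₀, eu₁] at hsum hprod
  refine analysis hlam hυ₀ hυ₁ hξ₀ hξ₁ (by simp [two_mul]) htr hlp hlm hsum hprod ?_
  intro S hS σ n hσ hanti
  have px₀ : 0 ≤ ∑ k, ξ₀ k := Finset.sum_nonneg fun i _ => hξ₀ i
  have px₁ : 0 ≤ ∑ k, ξ₁ k := Finset.sum_nonneg fun i _ => hξ₁ i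
  have pu₀ : 0 ≤ ∑ k, υ₀ k := Finset.sum_nonneg fun i _ => hυ₀ i
  have pu₁ : 0 ≤ ∑ k, υ₁ k := Finset.sum_nonneg fun i _ => hυ₁ i
  choose μ₀ hμ₀ hT₀ hc₀ using fun j => arm_mat N₀ hW₀ hY₀ hξ₀ hυ₀ hX₀ hU₀ S (hσ (j + 1))
  choose μ₁ hμ₁ hT₁ hc₁ using fun j => arm_mat N₁ hW₁ hY₁ hξ₁ hυ₁ hX₁ hU₁ S (hσ (j + 1))
  set a : ℕ → ℝ := fun j => th (∑ k, ξ₀ k) (∑ k, υ₀ k) (σ j) with ha
  set b : ℕ → ℝ := fun j => th (∑ k, ξ₁ k) (∑ k, υ₁ k) (σ j) with hb
  have ha0 : ∀ j, 0 ≤ a j := fun j => th_nonneg px₀ pu₀ (hσ j)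
  have hb0 : ∀ j, 0 ≤ b j := fun j => th_nonneg px₁ pu₁ (hσ j)
  have ha1 : ∀ j < n, a j ≤ a (j + 1) := fun j hj => th_anti px₀ pu₀ (hσ _) (hanti j hj)
  have hb1 : ∀ j < n, b j ≤ b (j + 1) := fun j hj => th_anti px₁ pu₁ (hσ _) (hanti j hj)
  have hl₀ : ∀ j < n, 0 ≤ ell (a j) (a (j + 1)) (b j) := fun j hj =>
    ell_nonneg (ha0 j) (ha1 j hj) (hb0 j)
  have hl₁ : ∀ j < n, 0 ≤ ell (b j) (b (j + 1)) (a (j + 1)) := fun j hj =>
    ell_nonneg (hb0 j) (hb1 j hj) (ha0 _)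
  -- pointwise bound
  have hpt : ∀ s ∈ Set.Ioo 0 S, ∑ j ∈ Finset.range n,
      (ell (a j) (a (j + 1)) (b j) * ((Finset.univ.filter fun k => s ≤ μ₀ j k).card : ℝ) +
        ell (b j) (b (j + 1)) (a (j + 1)) * ((Finset.univ.filter fun k => s ≤ μ₁ j k).card : ℝ)) ≤
      ∑ k, Real.log (s + lam k) - ∑ k, Real.log (s + υ₀ k) - ∑ k, Real.log (s + υ₁ k) := by
    intro s hs
    have hs0 := hs.1
    have hK₀ : ((s : ℂ) • (1 : Matrix B B ℂ) + U₀).PosDef :=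
      (PosDef.one.smul (by simpa using hs0)).add_posSemidef h₀
    have hK₁ : ((s : ℂ) • (1 : Matrix B B ℂ) + U₁).PosDef :=
      (PosDef.one.smul (by simpa using hs0)).add_posSemidef h₁
    obtain ⟨V₀, l₀, hV₀, hl₀', hA₀⟩ :=
      exists_sp_psd (hK₀.inv.posSemidef.conjTranspose_mul_mul_same N₀)
    obtain ⟨V₁, l₁, hV₁, hl₁', hA₁⟩ :=
      exists_sp_psd (hK₁.inv.posSemidef.conjTranspose_mul_mul_same N₁)
    have h1 := LD_split N₀ N₁ h₀ h₁ hs0
    rw [hA₀, hA₁, hZe, LD_shift hZ hlam hs0] at h1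
    have h2 : LD ((s : ℂ) • (1 : Matrix B B ℂ) + U₀) = _ := hU₀ ▸ LD_shift hY₀ hυ₀ hs0
    have h3 : LD ((s : ℂ) • (1 : Matrix B B ℂ) + U₁) = _ := hU₁ ▸ LD_shift hY₁ hυ₁ hs0
    rw [h2, h3] at h1
    have h4 := LD_chain hV₀ hV₁ hl₀' hl₁' ha0 hb0 n ha1 hb1
    refine le_trans ?_ (h4.trans (le_of_eq (by linarith)))
    refine Finset.sum_le_sum fun j hj => add_le_add ?_ ?_
    · rcases px₀.eq_or_lt with hx | hx
      · have : ell (a j) (a (j + 1)) (b j) = 0 := by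
          simp only [ha, ← hx]; exact ell_th_zero _ _ _ (hb0 j)
        rw [this, zero_mul]
        exact mul_nonneg (Nat.cast_nonneg _) (hl₀ j (Finset.mem_range.1 hj))
      · rw [mul_comm]
        exact mul_le_mul_of_nonneg_right (Nat.cast_le.2 (hc₀ j s hs0 V₀ l₀ hV₀ hA₀ hx))
          (hl₀ j (Finset.mem_range.1 hj))
    · rcases px₁.eq_or_lt with hx | hx
      · have : ell (b j) (b (j + 1)) (a (j + 1)) = 0 := by
          simp only [hb, ← hx]; exact ell_th_zero _ _ _ (ha0 _)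
        rw [this, zero_mul]
        exact mul_nonneg (Nat.cast_nonneg _) (hl₁ j (Finset.mem_range.1 hj))
      · rw [mul_comm]
        exact mul_le_mul_of_nonneg_right (Nat.cast_le.2 (hc₁ j s hs0 V₁ l₁ hV₁ hA₁ hx))
          (hl₁ j (Finset.mem_range.1 hj))
  have i0 : ∀ j, IntervalIntegrable
      (fun s : ℝ => ((Finset.univ.filter fun k => s ≤ μ₀ j k).card : ℝ)) volume 0 S :=
    fun j => (count_anti _).intervalIntegrable
  have i1 : ∀ j, IntervalIntegrable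
      (fun s : ℝ => ((Finset.univ.filter fun k => s ≤ μ₁ j k).card : ℝ)) volume 0 S :=
    fun j => (count_anti _).intervalIntegrable
  have i2 : ∀ j, IntervalIntegrable (fun s : ℝ =>
      ell (a j) (a (j + 1)) (b j) * ((Finset.univ.filter fun k => s ≤ μ₀ j k).card : ℝ) +
        ell (b j) (b (j + 1)) (a (j + 1)) * ((Finset.univ.filter fun k => s ≤ μ₁ j k).card : ℝ))
      volume 0 S := fun j => ((i0 j).const_mul _).add ((i1 j).const_mul _)
  have i3 : ∀ {ι : Type _} [Fintype ι] (f : ι → ℝ),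
      IntervalIntegrable (fun s => ∑ k, Real.log (s + f k)) volume 0 S := by
    intro ι _ f
    have := IntervalIntegrable.sum (Finset.univ : Finset ι) (fun k _ => intInt_log_add S (f k))
    rwa [Finset.sum_fn] at this
  have i4 : IntervalIntegrable (fun s => ∑ k, Real.log (s + lam k)) volume 0 S := by
    have := IntervalIntegrable.sum Finset.univ (fun k _ => intInt_log_add S (lam k))
    rwa [Finset.sum_fn] at this
  have i5 : IntervalIntegrable (fun s : ℝ => ∑ j ∈ Finset.range n,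
      (ell (a j) (a (j + 1)) (b j) * ((Finset.univ.filter fun k => s ≤ μ₀ j k).card : ℝ) +
        ell (b j) (b (j + 1)) (a (j + 1)) * ((Finset.univ.filter fun k => s ≤ μ₁ j k).card : ℝ)))
      volume 0 S := by
    have := IntervalIntegrable.sum (Finset.range n) (fun j _ => i2 j)
    rwa [Finset.sum_fn] at this
  have hI := intervalIntegral.integral_mono_on_of_le_Ioo hS.le i5 ((i4.sub (i3 υ₀)).sub (i3 υ₁)) hpt
  rw [intervalIntegral.integral_sub (i4.sub (i3 υ₀)) (i3 υ₁), intervalIntegral.integral_sub i4 (i3 υ₀),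
    intervalIntegral.integral_finsetSum (fun k _ => intInt_log_add S (lam k)),
    intervalIntegral.integral_finsetSum (fun k _ => intInt_log_add S (υ₀ k)),
    intervalIntegral.integral_finsetSum (fun k _ => intInt_log_add S (υ₁ k)),
    intervalIntegral.integral_finsetSum (fun j _ => i2 j)] at hI
  simp only [integral_log_add] at hI
  refine le_trans (Finset.sum_le_sum fun j hj => ?_) hI
  rw [intervalIntegral.integral_add ((i0 j).const_mul _) ((i1 j).const_mul _),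
    intervalIntegral.integral_const_mul, intervalIntegral.integral_const_mul, ← hT₀, ← hT₁]
  exact add_le_add
    (mul_le_mul_of_nonneg_left (integral_count hS.le (hμ₀ j)) (hl₀ j (Finset.mem_range.1 hj)))
    (mul_le_mul_of_nonneg_left (integral_count hS.le (hμ₁ j)) (hl₁ j (Finset.mem_range.1 hj)))

/-- Superadditivity (concavity) of the entropy. -/
theorem ent_superadd {A C : Matrix B B ℂ} (hA : A.PosSemidef) (hC : C.PosSemidef) :
    (vnEntropy A - Real.negMulLog A.trace.re) + (vnEntropy C - Real.negMulLog C.trace.re) ≤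
      vnEntropy (A + C) - Real.negMulLog (A.trace.re + C.trace.re) := by
  obtain ⟨M, rfl⟩ := exists_sqrt hA
  have ha : 0 ≤ (M * Mᴴ).trace.re := (Complex.le_def.1 hA.trace_nonneg).1
  have hc : 0 ≤ C.trace.re := (Complex.le_def.1 hC.trace_nonneg).1
  have h := key_ineq M (0 : Matrix B B ℂ) hC PosSemidef.zero
    (lp := (M * Mᴴ).trace.re + C.trace.re) (lm := 0) rfl rfl rfl rfl (by positivity) le_rfl
    (by simp) (by simp)
  simp only [Matrix.zero_mul, conjTranspose_zero, Matrix.mul_zero, add_zero, ent_zero, trace_zero,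
    Complex.zero_re, Real.negMulLog_zero, sub_zero] at h
  rw [ent_fromBlocks (hA.add hC).1 isHermitian_zero, ent_zero] at h
  linarith

lemma ent_smul_sub {A : Matrix B B ℂ} (hA : A.IsHermitian) (c : ℝ) :
    vnEntropy ((c : ℂ) • A) - Real.negMulLog (c * A.trace.re) =
      c * (vnEntropy A - Real.negMulLog A.trace.re) := by
  rw [ent_smul hA, Real.negMulLog_mul]; ring

/-- Pinching. -/
theorem ent_pinch {P Q Y Y' : Matrix B B ℂ} (h : (fromBlocks P Y Y' Q).PosSemidef) :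
    vnEntropy (fromBlocks P Y Y' Q) ≤ vnEntropy P + vnEntropy Q := by
  set A := fromBlocks P Y Y' Q with hA
  set D : Matrix (B ⊕ B) (B ⊕ B) ℂ := fromBlocks 1 0 0 (-1) with hD
  have hDD : Dᴴ * D = 1 := by
    rw [hD, fromBlocks_conjTranspose, fromBlocks_multiply]; simp
  have hP : P.IsHermitian := (isHermitian_fromBlocks_iff.1 h.1).1
  have hQ : Q.IsHermitian := (isHermitian_fromBlocks_iff.1 h.1).2.2.2
  have h2 : (D * A * Dᴴ).PosSemidef := h.mul_mul_conjTranspose_same D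
  have htr : (D * A * Dᴴ).trace = A.trace := by rw [trace_mul_cycle, hDD, Matrix.one_mul]
  have hh : (0 : ℂ) ≤ ((1 / 2 : ℝ) : ℂ) := by norm_cast; norm_num
  have key := ent_superadd (h.smul hh) (h2.smul hh)
  have e : ((1 / 2 : ℝ) : ℂ) • A + ((1 / 2 : ℝ) : ℂ) • (D * A * Dᴴ) = fromBlocks P 0 0 Q := by
    rw [hD, hA, fromBlocks_conjTranspose, fromBlocks_multiply, fromBlocks_multiply,
      fromBlocks_smul, fromBlocks_smul, fromBlocks_add]
    congr 1 <;> simp [← add_smul] <;> norm_num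
  rw [e, ent_fromBlocks hP hQ, trace_smul, trace_smul, smul_eq_mul, smul_eq_mul,
    Complex.re_ofReal_mul, Complex.re_ofReal_mul,
    ent_smul_sub h.1, ent_smul_sub h2.1, ent_unitary hDD h.1, htr] at key
  have e2 : 1 / 2 * A.trace.re + 1 / 2 * A.trace.re = A.trace.re := by ring
  rw [e2] at key
  linarith

end Crest.Agent.R341
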