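import Crest.Agent.R341.Hol
import Crest.Agent.R341.Conv

/-! Tensor powers. -/

set_option autoImplicit false
set_option maxHeartbeats 400000
set_option linter.unusedSectionVars false
open Matrix Crest.Quantum Crest.MathPhysics.AmpDamp
open scoped ComplexOrder Kronecker

namespace Crest.Agent.R341

variable {d e d' e' : Type*} [Fintype d] [DecidableEq d] [Fintype e] [DecidableEq e]
  [Fintype d'] [DecidableEq d'] [Fintype e'] [DecidableEq e']

lemma cp_blockwise {Ψ : Matrix d d ℂ → Matrix e e ℂ} (hΨ : IsCompletelyPositive Ψ)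
    (k : Type*) [Fintype k] : IsCompletelyPositive (blockwise (k := k) Ψ) := by
  intro j M hM
  exact (blockwise_psd hΨ (k := Fin j × k) (hM.submatrix (Equiv.prodAssoc _ _ _))).submatrix
    (Equiv.prodAssoc _ _ _).symm

lemma chan_qT {γ ν : ℝ} (hγ : γ ∈ Set.Icc (0 : ℝ) 1) (hν : ν ∈ Set.Icc (0 : ℝ) 1)
    {Ψ : Matrix d d ℂ → Matrix e e ℂ} (hΨ : IsChannel Ψ) :
    IsChannel (qubitTensor (gadMap γ ν) Ψ) := by
  refine ⟨⟨fun A C => ?_, fun c A => ?_⟩, fun k M hM => ?_, fun M => ?_⟩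
  · have hb : ∀ s t, block (A + C) s t = block A s t + block C s t := fun s t => rfl
    ext p q
    simp only [qubitTensor, of_apply, hb, hΨ.1.map_add, Matrix.add_apply, mul_add,
      Finset.sum_add_distrib]
  · have hb : ∀ s t, block (c • A) s t = c • block A s t := fun s t => rfl
    ext p q
    simp only [qubitTensor, of_apply, hb, hΨ.1.map_smul, Matrix.smul_apply, smul_eq_mul,
      Finset.mul_sum]
    exact Finset.sum_congr rfl fun s _ => Finset.sum_congr rfl fun t _ => by ring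
  · exact (qT_psd hγ hν (cp_blockwise hΨ.2.1 (Fin k))
      (hM.submatrix (fun p : Bool × (Fin k × d) => (p.2.1, (p.1, p.2.2))))).submatrix
      (fun p : Fin k × (Bool × e) => (p.2.1, (p.1, p.2.2)))
  · rw [trace_bool, trace_bool M, qT_ff, qT_tt]
    simp only [trace_add, trace_smul, hΨ.2.2 _, smul_eq_mul]
    push_cast; ring

lemma trace_sub_equiv (φ : d ≃ d') (M : Matrix d' d' ℂ) : (M.submatrix φ φ).trace = M.trace :=
  Equiv.sum_comp φ fun i => M i i

lemma chan_reindex {Φ : Matrix d d ℂ → Matrix e e ℂ} (hΦ : IsChannel Φ) (φ : d ≃ d') (ψ : e' ≃ e) :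
    IsChannel (fun M : Matrix d' d' ℂ => (Φ (M.submatrix φ φ)).submatrix ψ ψ) := by
  refine ⟨⟨fun A C => ?_, fun c A => ?_⟩, fun k M hM => ?_, fun M => ?_⟩
  · have : (A + C).submatrix φ φ = A.submatrix φ φ + C.submatrix φ φ := rfl
    rw [this, hΦ.1.map_add]; rfl
  · have : (c • A).submatrix φ φ = c • A.submatrix φ φ := rfl
    rw [this, hΦ.1.map_smul]; rfl
  · exact (hΦ.2.1 k _ (hM.submatrix (Prod.map id φ))).submatrix (Prod.map id ψ)
  · rw [trace_sub_equiv, hΦ.2.2, trace_sub_equiv]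

lemma hol_reindex (Φ : Matrix d d ℂ → Matrix e e ℂ) (φ : d ≃ d') (ψ : e' ≃ e) {ι : Type*}
    [Fintype ι] (q : ι → ℝ) (ρ : ι → Matrix d' d' ℂ) :
    hol (fun M : Matrix d' d' ℂ => (Φ (M.submatrix φ φ)).submatrix ψ ψ) q ρ =
      hol Φ q (fun a => (ρ a).submatrix φ φ) := by
  unfold hol
  simp only [ent_submatrix]
  rw [← ent_submatrix ψ (∑ a, (q a : ℂ) • Φ ((ρ a).submatrix φ φ))]
  congr 2
  ext i j
  simp [Matrix.sum_apply]

lemma Ens.reindex {ι : Type*} [Fintype ι] {q : ι → ℝ} {ρ : ι → Matrix d' d' ℂ} (h : Ens q ρ)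
    (φ : d ≃ d') : Ens q (fun a => (ρ a).submatrix φ φ) :=
  ⟨h.1, h.2.1, fun a => ⟨(h.2.2 a).1.submatrix _, by rw [trace_sub_equiv, (h.2.2 a).2]⟩⟩

/-- splitting off the first qubit -/
def cE (n : ℕ) : Bool × (Fin n → Bool) ≃ (Fin (n + 1) → Bool) := Fin.consEquiv fun _ => Bool

lemma qubitPower_succ (n : ℕ) (Φ : Matrix Bool Bool ℂ → Matrix Bool Bool ℂ) :
    qubitPower (n + 1) Φ = fun M => (qubitTensor Φ (qubitPower n Φ)
      (M.submatrix (cE n) (cE n))).submatrix (cE n).symm (cE n).symm := by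
  ext M σ τ
  simp only [qubitPower, qubitTensor, of_apply, submatrix_apply, block]
  rw [← (cE n).sum_comp, Fintype.sum_prod_type]
  refine Finset.sum_congr rfl fun s _ => ?_
  simp only [← (cE n).sum_comp (fun τ' => (∏ i, qubitCoeff Φ (σ i) (τ i) _ (τ' i)) * _),
    Fintype.sum_prod_type]
  rw [Finset.sum_comm]
  refine Finset.sum_congr rfl fun t _ => ?_
  simp only [Finset.mul_sum]
  refine Finset.sum_congr rfl fun σ' _ => Finset.sum_congr rfl fun τ' _ => ?_
  rw [Fin.prod_univ_succ, ← mul_assoc]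
  rfl

lemma qubitPower_zero (Φ : Matrix Bool Bool ℂ → Matrix Bool Bool ℂ) : qubitPower 0 Φ = id := by
  ext M σ τ
  simp only [qubitPower, of_apply, Fintype.sum_unique, Finset.univ_eq_empty, Finset.prod_empty,
    one_mul, id]
  congr <;> exact Subsingleton.elim _ _

lemma chan_pow {γ ν : ℝ} (hγ : γ ∈ Set.Icc (0 : ℝ) 1) (hν : ν ∈ Set.Icc (0 : ℝ) 1) (n : ℕ) :
    IsChannel (qubitPower n (gadMap γ ν)) := by
  induction n with
  | zero =>
    rw [qubitPower_zero]
    exact ⟨⟨fun _ _ => rfl, fun _ _ => rfl⟩, fun k M hM => hM, fun M => rfl⟩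
  | succ n ih =>
    rw [qubitPower_succ]
    exact chan_reindex (chan_qT hγ hν ih) _ _

lemma ent_unique [Unique d] {A : Matrix d d ℂ} (hA : A.trace = 1) : vnEntropy A = 0 := by
  have : A = sp 1 fun _ => (1 : ℝ) := by
    rw [sp_const (by simp)]
    ext i j
    rw [Subsingleton.elim i default, Subsingleton.elim j default]
    simpa [trace] using hA
  rw [this, ent_sp (by simp)]; simp

lemma hol_zero (Φ : Matrix Bool Bool ℂ → Matrix Bool Bool ℂ) {ι : Type*} [Fintype ι] {q : ι → ℝ}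
    {ρ : ι → Matrix (Fin 0 → Bool) (Fin 0 → Bool) ℂ} (h : Ens q ρ) :
    hol (qubitPower 0 Φ) q ρ = 0 := by
  rw [qubitPower_zero]
  unfold hol
  simp only [id]
  rw [ent_unique]
  · simp [ent_unique (h.2.2 _).2]
  · simp only [trace_sum, trace_smul, (h.2.2 _).2, smul_eq_mul, mul_one, ← Complex.ofReal_sum,
      h.2.1, Complex.ofReal_one]

theorem pow_upper {γ ν : ℝ} (hγ : γ ∈ Set.Icc (0 : ℝ) 1) (hν : ν ∈ Set.Icc (0 : ℝ) 1) (n : ℕ) :
    ∀ (ι : Type) [Fintype ι] (q : ι → ℝ) (ρ : ι → Matrix (Fin n → Bool) (Fin n → Bool) ℂ),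
      Ens q ρ → ∃ p ∈ Set.Icc (0 : ℝ) 1,
        hol (qubitPower n (gadMap γ ν)) q ρ ≤ n * gadRate γ ν p := by
  induction n with
  | zero =>
    intro ι _ q ρ h
    exact ⟨0, by simp, by rw [hol_zero _ h]; simp⟩
  | succ n ih =>
    intro ι _ q ρ h
    rw [qubitPower_succ, hol_reindex]
    obtain ⟨p, q₂, ρ₂, hp, h₂, hle⟩ := hol_upper hγ hν (chan_pow hγ hν n) (h.reindex (cE n))
    obtain ⟨p', hp', hle'⟩ := ih _ q₂ ρ₂ h₂
    have hJ := fE_jensen hγ hν h.1 h.2.1 hp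
    have hbar : ∑ a, q a * p a ∈ Set.Icc (0 : ℝ) 1 := by
      refine ⟨Finset.sum_nonneg fun a _ => mul_nonneg (h.1 a) (hp a).1, ?_⟩
      rw [← h.2.1]
      exact Finset.sum_le_sum fun a _ => mul_le_of_le_one_right (h.1 a) (hp a).2
    have h1 := gadRate_eq γ ν (∑ a, q a * p a)
    have hn : (0 : ℝ) ≤ n := Nat.cast_nonneg n
    rcases le_total (gadRate γ ν p') (gadRate γ ν (∑ a, q a * p a)) with hc | hc
    · refine ⟨_, hbar, ?_⟩
      have := mul_le_mul_of_nonneg_left hc hn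
      push_cast; linarith
    · refine ⟨_, hp', ?_⟩
      push_cast; linarith

theorem pow_lower {γ ν : ℝ} (hγ : γ ∈ Set.Icc (0 : ℝ) 1) (hν : ν ∈ Set.Icc (0 : ℝ) 1) (n : ℕ)
    {p : ℝ} (hp : p ∈ Set.Icc (0 : ℝ) 1) :
    ∃ (ι : Type) (_ : Fintype ι) (q : ι → ℝ) (ρ : ι → Matrix (Fin n → Bool) (Fin n → Bool) ℂ),
      Ens q ρ ∧ n * gadRate γ ν p ≤ hol (qubitPower n (gadMap γ ν)) q ρ := by
  induction n with
  | zero =>
    have h : Ens (fun _ : Unit => (1 : ℝ))
        (fun _ => (1 : Matrix (Fin 0 → Bool) (Fin 0 → Bool) ℂ)) :=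
      ⟨fun _ => zero_le_one, by simp, fun _ => ⟨PosSemidef.one, by simp⟩⟩
    exact ⟨Unit, inferInstance, _, _, h, by rw [hol_zero _ h]; simp⟩
  | succ n ih =>
    obtain ⟨ι, _, q₂, ρ₂, h₂, hle⟩ := ih
    obtain ⟨q₁, ρ₁, h₁, he⟩ := hol_qubit hγ hν (q := fun _ : Unit => 1) (p := fun _ => p)
      (fun _ => zero_le_one) (by simp) (fun _ => hp)
    obtain ⟨q, ρ, h, he'⟩ := hol_product γ ν (chan_pow hγ hν n) h₁ h₂
    refine ⟨_, inferInstance, q, _, h.reindex (cE n).symm, ?_⟩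
    rw [qubitPower_succ, hol_reindex]
    simp only [submatrix_submatrix, Equiv.symm_comp_self, submatrix_id_id]
    rw [he', he]
    have h1 := gadRate_eq γ ν p
    simp only [Finset.univ_unique, Finset.sum_singleton, one_mul]
    push_cast; linarith

end Crest.Agent.R341
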