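import Crest.Agent.R341.Spec

/-! Quadratic forms, log-determinants and rank-one updates. -/

set_option autoImplicit false
open Matrix Crest.Quantum
open scoped ComplexOrder

namespace Crest.Agent.R341

variable {n m : Type*} [Fintype n] [DecidableEq n] [Fintype m] [DecidableEq m]

/-- real part of the quadratic form -/
def qf (M : Matrix n n ℂ) (v : n → ℂ) : ℝ := (star v ⬝ᵥ M *ᵥ v).re

/-- squared norm -/
def nsq (v : n → ℂ) : ℝ := ∑ i, Complex.normSq (v i)

omit [DecidableEq n] in
lemma qf_add (M N : Matrix n n ℂ) (v : n → ℂ) : qf (M + N) v = qf M v + qf N v := by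
  simp [qf, add_mulVec, dotProduct_add]

omit [DecidableEq n] in
lemma qf_sub (M N : Matrix n n ℂ) (v : n → ℂ) : qf (M - N) v = qf M v - qf N v := by
  simp [qf, sub_mulVec, dotProduct_sub]

omit [DecidableEq n] in
lemma qf_smul (c : ℝ) (M : Matrix n n ℂ) (v : n → ℂ) : qf ((c : ℂ) • M) v = c * qf M v := by
  simp [qf, smul_mulVec, dotProduct_smul]

omit [DecidableEq n] in
lemma qf_nonneg {M : Matrix n n ℂ} (h : M.PosSemidef) (v : n → ℂ) : 0 ≤ qf M v :=
  h.re_dotProduct_nonneg v

omit [DecidableEq n] in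
lemma qf_pos {M : Matrix n n ℂ} (h : M.PosDef) {v : n → ℂ} (hv : v ≠ 0) : 0 < qf M v :=
  h.re_dotProduct_pos hv

lemma qf_dg (f : n → ℝ) (v : n → ℂ) : qf (dg f) v = ∑ i, f i * Complex.normSq (v i) := by
  unfold qf dg dotProduct
  rw [Complex.re_sum]
  refine Finset.sum_congr rfl fun i _ => ?_
  rw [mulVec_diagonal]
  simp [Complex.normSq_apply]; ring

lemma qf_one (v : n → ℂ) : qf 1 v = nsq v := by
  have := qf_dg (fun _ => (1 : ℝ)) v
  rw [dg_const] at this
  simpa [nsq] using this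

omit [DecidableEq n] [DecidableEq m] in
lemma qf_conj (N : Matrix n m ℂ) (K : Matrix n n ℂ) (v : m → ℂ) :
    qf (Nᴴ * K * N) v = qf K (N *ᵥ v) := by
  unfold qf
  rw [star_mulVec, ← mulVec_mulVec, ← mulVec_mulVec, dotProduct_mulVec]

lemma qf_sp (U : Matrix n n ℂ) (f : n → ℝ) (v : n → ℂ) :
    qf (sp U f) v = ∑ i, f i * Complex.normSq ((Uᴴ *ᵥ v) i) := by
  rw [← qf_dg, ← qf_conj, conjTranspose_conjTranspose]; rfl

lemma nsq_unitary {U : Matrix n n ℂ} (hU : Uᴴ * U = 1) (v : n → ℂ) : nsq (U *ᵥ v) = nsq v := by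
  rw [← qf_one, ← qf_conj, Matrix.mul_one, hU, qf_one]

omit [DecidableEq n] in
lemma qf_mul_conjTranspose (N : Matrix n m ℂ) (v : n → ℂ) : qf (N * Nᴴ) v = nsq (Nᴴ *ᵥ v) := by
  rw [← qf_one, ← qf_conj, Matrix.mul_one, conjTranspose_conjTranspose]

/-- Cauchy-Schwarz for the inverse of a positive definite matrix. -/
lemma qf_inv_ge {K : Matrix n n ℂ} (hK : K.PosDef) (z v : n → ℂ) (t : ℝ) :
    2 * t * (star v ⬝ᵥ z).re - t ^ 2 * qf K v ≤ qf K⁻¹ z := by
  have hu : IsUnit K.det := (isUnit_iff_isUnit_det K).1 hK.isUnit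
  set w := K⁻¹ *ᵥ z with hw
  have hz : K *ᵥ w = z := by rw [hw, mulVec_mulVec, mul_nonsing_inv _ hu, one_mulVec]
  have h0 := qf_nonneg hK.posSemidef (w - (t : ℂ) • v)
  have h1 : star w ⬝ᵥ K *ᵥ v = star z ⬝ᵥ v := by
    rw [dotProduct_mulVec, ← hz, star_mulVec K w, hK.1.eq]
  have h2 : (star z ⬝ᵥ v).re = (star v ⬝ᵥ z).re := by
    rw [star_dotProduct]; simp
  have h3 : (star w ⬝ᵥ z).re = qf K⁻¹ z := by
    unfold qf; rw [← hw, star_dotProduct]; simp
  unfold qf at h0
  rw [mulVec_sub, mulVec_smul, hz, star_sub, star_smul, sub_dotProduct, dotProduct_sub,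
    dotProduct_sub, dotProduct_smul, smul_dotProduct, smul_dotProduct, dotProduct_smul, h1] at h0
  simp only [Complex.sub_re, smul_eq_mul, Complex.star_def, Complex.conj_ofReal,
    Complex.re_ofReal_mul] at h0
  rw [h2, h3] at h0
  unfold qf at *
  nlinarith

/-- log of the modulus of the determinant -/
noncomputable def LD (M : Matrix n n ℂ) : ℝ := Real.log ‖M.det‖

lemma LD_one : LD (1 : Matrix n n ℂ) = 0 := by simp [LD]

lemma LD_sp {U : Matrix n n ℂ} (hU : Uᴴ * U = 1) {f : n → ℝ} (hf : ∀ i, 0 < f i) :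
    LD (sp U f) = ∑ i, Real.log (f i) := by
  unfold LD
  rw [det_sp hU, Complex.norm_real, Real.norm_eq_abs, Real.log_abs,
    Real.log_prod (fun i _ => (hf i).ne')]

lemma LD_conj {U : Matrix n n ℂ} (hU : Uᴴ * U = 1) (M : Matrix n n ℂ) :
    LD (U * M * Uᴴ) = LD M := by
  unfold LD
  rw [det_mul_comm, ← Matrix.mul_assoc, hU, Matrix.one_mul]

lemma qf_single (M : Matrix n n ℂ) (k : n) : qf M (Pi.single k 1) = (M k k).re := by
  unfold qf
  rw [mulVec_single_one, ← Pi.single_star, star_one, single_one_dotProduct]; rfl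

/-- rank-one update of the log-determinant -/
lemma LD_rank_one {K : Matrix n n ℂ} (hK : K.PosDef) (k : n) {ρ t : ℝ} (hρ : (K k k).re ≤ ρ)
    (ht : 0 ≤ t) : LD K + Real.log ((ρ + t) / ρ) ≤ LD (K + dg (Pi.single k t)) := by
  have hu : IsUnit K.det := (isUnit_iff_isUnit_det K).1 hK.isUnit
  have hkk : 0 < (K k k).re := by
    rw [← qf_single]; exact qf_pos hK (by simp)
  have hρ0 : 0 < ρ := hkk.trans_le hρ
  have e1 : dg (Pi.single k t) =
      replicateCol Unit (Pi.single k (t : ℂ)) * replicateRow Unit (Pi.single k (1 : ℂ)) := by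
    ext i j
    simp only [dg, diagonal_apply, Matrix.mul_apply, replicateCol_apply, replicateRow_apply,
      Finset.univ_unique, Finset.sum_const, Finset.card_singleton, one_smul, Pi.single_apply]
    by_cases hi : i = k <;> by_cases hj : j = k <;> simp [hi, hj]
    · exact fun h => absurd h.symm hj
  have hinv : 1 / ρ ≤ (K⁻¹ k k).re := by
    have := qf_inv_ge hK (Pi.single k 1) (Pi.single k 1) (1 / ρ)
    rw [qf_single, qf_single, ← Pi.single_star, star_one, single_one_dotProduct] at this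
    simp only [Pi.single_eq_same, Complex.one_re, mul_one] at this
    have h2 : (1 / ρ) ^ 2 * (K k k).re ≤ (1 / ρ) ^ 2 * ρ := by gcongr
    have h3 : (1 / ρ) ^ 2 * ρ = 1 / ρ := by field_simp
    linarith
  have e2 : (1 + replicateRow Unit (Pi.single k (1 : ℂ)) * K⁻¹ *
      replicateCol Unit (Pi.single k (t : ℂ))).det = 1 + K⁻¹ k k * t := by
    rw [det_unique]
    simp [Matrix.mul_apply, Pi.single_apply]
  unfold LD
  rw [e1, det_add_replicateCol_mul_replicateRow hu, e2, norm_mul]
  have hd : 0 < ‖K.det‖ := norm_pos_iff.2 hu.ne_zero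
  have h4 : (ρ + t) / ρ ≤ ‖1 + K⁻¹ k k * t‖ := by
    refine le_trans ?_ (Complex.re_le_norm _)
    simp only [Complex.add_re, Complex.one_re, Complex.mul_re, Complex.ofReal_re,
      Complex.ofReal_im, mul_zero, sub_zero]
    have : (ρ + t) / ρ = 1 + 1 / ρ * t := by field_simp
    rw [this]; gcongr
  have h5 : 0 < (ρ + t) / ρ := by positivity
  rw [Real.log_mul hd.ne' (h5.trans_le h4).ne']
  gcongr

/-- raising a diagonal: diagonal frame -/
lemma LD_raise_dg {B : Matrix n n ℂ} (hB : B.PosSemidef) {b : ℝ} (hb : ∀ k, (B k k).re ≤ b)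
    {c c' : n → ℝ} (hc : ∀ k, 0 ≤ c k) (hcc : ∀ k, c k ≤ c' k) :
    LD (1 + dg c + B) + ∑ k, Real.log ((1 + c' k + b) / (1 + c k + b)) ≤ LD (1 + dg c' + B) := by
  have key : ∀ S : Finset n, LD (1 + dg c + B) + ∑ k ∈ S, Real.log ((1 + c' k + b) / (1 + c k + b))
      ≤ LD (1 + dg (S.piecewise c' c) + B) := by
    intro S
    induction S using Finset.induction_on with
    | empty => simp
    | insert k S hk ih =>
      have hpos : ∀ i, 0 ≤ S.piecewise c' c i := by
        intro i
        by_cases hi : i ∈ S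
        · rw [Finset.piecewise_eq_of_mem _ _ _ hi]; exact (hc i).trans (hcc i)
        · rw [Finset.piecewise_eq_of_notMem _ _ _ hi]; exact hc i
      have hK : (1 + dg (S.piecewise c' c) + B).PosDef :=
        (PosDef.one.add_posSemidef (dg_psd hpos)).add_posSemidef hB
      have hρ : ((1 + dg (S.piecewise c' c) + B) k k).re ≤ 1 + c k + b := by
        have := hb k
        simp only [dg, Matrix.add_apply, one_apply_eq, diagonal_apply_eq, Complex.add_re,
          Complex.one_re, Complex.ofReal_re, Finset.piecewise_eq_of_notMem _ _ _ hk]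
        linarith
      have h1 := LD_rank_one hK k hρ (sub_nonneg.2 (hcc k))
      have e : 1 + dg (S.piecewise c' c) + B + dg (Pi.single k (c' k - c k)) =
          1 + dg ((insert k S).piecewise c' c) + B := by
        have : (insert k S).piecewise c' c = S.piecewise c' c + Pi.single k (c' k - c k) := by
          ext i
          by_cases hi : i = k
          · subst hi; simp [Finset.piecewise_eq_of_notMem _ _ _ hk]
          · simp [Finset.piecewise_insert_of_ne _ _ _ hi, hi]
        rw [this, dg_add]; abel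
      rw [e] at h1
      rw [Finset.sum_insert hk]
      have e2 : 1 + c k + b + (c' k - c k) = 1 + c' k + b := by ring
      rw [e2] at h1
      linarith
  simpa using key Finset.univ

/-- **Lemma A**: raising the eigenvalues of one summand. -/
lemma LD_raise {V W : Matrix n n ℂ} (hV : Vᴴ * V = 1) (hW : Wᴴ * W = 1) {b : ℝ} {d : n → ℝ}
    (hd : ∀ k, 0 ≤ d k) (hb : ∀ k, d k ≤ b)
    {c c' : n → ℝ} (hc : ∀ k, 0 ≤ c k) (hcc : ∀ k, c k ≤ c' k) :
    LD (1 + sp V c + sp W d) + ∑ k, Real.log ((1 + c' k + b) / (1 + c k + b))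
      ≤ LD (1 + sp V c' + sp W d) := by
  have hV' : V * Vᴴ = 1 := mul_eq_one_comm.1 hV
  have e : ∀ c : n → ℝ, 1 + sp V c + sp W d = V * (1 + dg c + Vᴴ * sp W d * V) * Vᴴ := by
    intro c
    simp only [Matrix.mul_add, Matrix.add_mul, Matrix.mul_one, hV']
    congr 1
    simp only [← Matrix.mul_assoc, hV', Matrix.one_mul]
    simp only [Matrix.mul_assoc, hV', Matrix.mul_one]
  rw [e c, e c', LD_conj hV, LD_conj hV]
  refine LD_raise_dg ((sp_psd W hd).conjTranspose_mul_mul_same V) (fun k => ?_) hc hcc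
  rw [← qf_single, qf_conj]
  have h1 := qf_nonneg (sp_psd W (f := (fun _ => b) - d) (fun k => by simpa using hb k))
    (V *ᵥ Pi.single k 1)
  rw [sp_sub, sp_const hW, qf_sub, qf_smul, qf_one, nsq_unitary hV, ← qf_one, qf_single] at h1
  simp at h1
  simpa using h1

end Crest.Agent.R341
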