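import Mathlib
import Crest.Prelude.Def_QState

/-! Spectral bookkeeping for the von Neumann entropy. -/

set_option autoImplicit false
open Matrix Crest.Quantum
open scoped ComplexOrder Kronecker

namespace Crest.Agent.R341

variable {n m : Type*} [Fintype n] [DecidableEq n] [Fintype m] [DecidableEq m]

/-- real diagonal matrix -/
def dg (f : n → ℝ) : Matrix n n ℂ := diagonal fun i => (f i : ℂ)

/-- `U diag(f) U†` -/
def sp (U : Matrix n n ℂ) (f : n → ℝ) : Matrix n n ℂ := U * dg f * Uᴴ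

omit [Fintype n] in
lemma dg_herm (f : n → ℝ) : (dg f).IsHermitian := by
  unfold dg
  rw [IsHermitian, diagonal_conjTranspose]
  congr 1; ext i; simp

omit [Fintype n] in
lemma dg_add (f g : n → ℝ) : dg (f + g) = dg f + dg g := by
  unfold dg; rw [diagonal_add]; congr 1; ext i; simp

omit [Fintype n] in
lemma dg_sub (f g : n → ℝ) : dg (f - g) = dg f - dg g := by
  unfold dg; rw [diagonal_sub]; congr 1; ext i; simp

omit [Fintype n] in
lemma dg_const (c : ℝ) : dg (fun _ : n => c) = (c : ℂ) • (1 : Matrix n n ℂ) := by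
  unfold dg; rw [smul_one_eq_diagonal]

omit [Fintype n] in
lemma dg_smul (c : ℝ) (f : n → ℝ) : dg (fun i => c * f i) = (c : ℂ) • dg f := by
  unfold dg; rw [← diagonal_smul]; congr 1; ext i; simp

omit [Fintype n] in
lemma dg_psd {f : n → ℝ} (hf : ∀ i, 0 ≤ f i) : (dg f).PosSemidef :=
  PosSemidef.diagonal fun i => by simpa using hf i

lemma sp_herm (U : Matrix n n ℂ) (f : n → ℝ) : (sp U f).IsHermitian :=
  isHermitian_mul_mul_conjTranspose U (dg_herm f)

lemma sp_psd (U : Matrix n n ℂ) {f : n → ℝ} (hf : ∀ i, 0 ≤ f i) : (sp U f).PosSemidef :=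
  (dg_psd hf).mul_mul_conjTranspose_same U

lemma sp_add (U : Matrix n n ℂ) (f g : n → ℝ) : sp U (f + g) = sp U f + sp U g := by
  unfold sp; rw [dg_add, Matrix.mul_add, Matrix.add_mul]

lemma sp_sub (U : Matrix n n ℂ) (f g : n → ℝ) : sp U (f - g) = sp U f - sp U g := by
  unfold sp; rw [dg_sub, Matrix.mul_sub, Matrix.sub_mul]

lemma sp_smul (U : Matrix n n ℂ) (c : ℝ) (f : n → ℝ) :
    sp U (fun i => c * f i) = (c : ℂ) • sp U f := by
  unfold sp; rw [dg_smul, Matrix.mul_smul, Matrix.smul_mul]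

lemma sp_const {U : Matrix n n ℂ} (hU : Uᴴ * U = 1) (c : ℝ) :
    sp U (fun _ => c) = (c : ℂ) • (1 : Matrix n n ℂ) := by
  unfold sp; rw [dg_const, Matrix.mul_smul, Matrix.smul_mul, Matrix.mul_one, mul_eq_one_comm.1 hU]

lemma exists_sp {A : Matrix n n ℂ} (hA : A.IsHermitian) :
    ∃ U : Matrix n n ℂ, Uᴴ * U = 1 ∧ A = sp U hA.eigenvalues := by
  refine ⟨hA.eigenvectorUnitary, ?_, ?_⟩
  · exact Unitary.coe_star_mul_self hA.eigenvectorUnitary
  · conv_lhs => rw [hA.spectral_theorem, Unitary.conjStarAlgAut_apply]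
    rfl

lemma exists_sp_psd {A : Matrix n n ℂ} (hA : A.PosSemidef) :
    ∃ (U : Matrix n n ℂ) (f : n → ℝ), Uᴴ * U = 1 ∧ (∀ i, 0 ≤ f i) ∧ A = sp U f := by
  obtain ⟨U, hU, h⟩ := exists_sp hA.1
  exact ⟨U, _, hU, hA.eigenvalues_nonneg, h⟩

lemma trace_sp {U : Matrix n n ℂ} (hU : Uᴴ * U = 1) (f : n → ℝ) :
    (sp U f).trace = ((∑ i, f i : ℝ) : ℂ) := by
  unfold sp dg
  rw [trace_mul_cycle, hU, Matrix.one_mul, trace_diagonal]; simp

lemma det_sp {U : Matrix n n ℂ} (hU : Uᴴ * U = 1) (f : n → ℝ) :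
    (sp U f).det = ((∏ i, f i : ℝ) : ℂ) := by
  unfold sp dg
  rw [det_mul_comm, ← Matrix.mul_assoc, hU, Matrix.one_mul, det_diagonal]; simp

open Polynomial in
lemma charpoly_sp {U : Matrix n n ℂ} (hU : Uᴴ * U = 1) (f : n → ℝ) :
    (sp U f).charpoly = ∏ i, (X - C (f i : ℂ)) := by
  unfold sp dg
  rw [charpoly_mul_comm, ← Matrix.mul_assoc, hU, Matrix.one_mul, charpoly_diagonal]

open Polynomial in
lemma ent_of_charpoly {A : Matrix n n ℂ} (hA : A.IsHermitian) {ι : Type*} [Fintype ι] (f : ι → ℝ)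
    (h : A.charpoly = ∏ i, (X - C (f i : ℂ))) :
    vnEntropy A = ∑ i, Real.negMulLog (f i) := by
  have h1 := hA.roots_charpoly_eq_eigenvalues
  have h2 : A.charpoly.roots = Multiset.map (fun i => (f i : ℂ)) Finset.univ.val := by
    rw [h, Polynomial.roots_prod]
    · simp
    · simp [Finset.prod_ne_zero_iff, Polynomial.X_sub_C_ne_zero]
  have h3 := congrArg (fun s => (Multiset.map (fun z : ℂ => Real.negMulLog z.re) s).sum)
    (h1.symm.trans h2)
  simp only [Multiset.map_map, Function.comp_def] at h3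
  unfold vnEntropy
  rw [dif_pos hA, ← Finset.sum_neg_distrib]
  have e1 : ∑ i, -(hA.eigenvalues i * Real.log (hA.eigenvalues i)) =
      (Multiset.map (fun i => Real.negMulLog (RCLike.ofReal (hA.eigenvalues i) : ℂ).re)
        Finset.univ.val).sum := by
    rw [Finset.sum]; congr 2; ext i; simp [Real.negMulLog]
  rw [e1, h3, Finset.sum]; congr 2

lemma ent_sp {U : Matrix n n ℂ} (hU : Uᴴ * U = 1) (f : n → ℝ) :
    vnEntropy (sp U f) = ∑ i, Real.negMulLog (f i) :=
  ent_of_charpoly (sp_herm U f) f (charpoly_sp hU f)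

lemma ent_congr {A : Matrix n n ℂ} {B : Matrix m m ℂ} (hA : A.IsHermitian) (hB : B.IsHermitian)
    (h : A.charpoly = B.charpoly) : vnEntropy A = vnEntropy B := by
  rw [ent_of_charpoly hA hB.eigenvalues (h.trans hB.charpoly_eq),
    ent_of_charpoly hB hB.eigenvalues hB.charpoly_eq]

lemma ent_submatrix (e : m ≃ n) (A : Matrix n n ℂ) :
    vnEntropy (A.submatrix e e) = vnEntropy A := by
  by_cases hA : A.IsHermitian
  · refine ent_congr (hA.submatrix e) hA ?_
    have := charpoly_reindex e.symm A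
    simpa [reindex_apply] using this
  · have hB : ¬ (A.submatrix e e).IsHermitian := by
      intro h; apply hA
      simpa using h.submatrix e.symm
    simp [vnEntropy, hA, hB]

lemma ent_unitary {D A : Matrix n n ℂ} (hD : Dᴴ * D = 1) (hA : A.IsHermitian) :
    vnEntropy (D * A * Dᴴ) = vnEntropy A := by
  refine ent_congr (isHermitian_mul_mul_conjTranspose D hA) hA ?_
  rw [charpoly_mul_comm, ← Matrix.mul_assoc, hD, Matrix.one_mul]

open Polynomial in
lemma ent_fromBlocks {A : Matrix n n ℂ} {B : Matrix m m ℂ} (hA : A.IsHermitian)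
    (hB : B.IsHermitian) : vnEntropy (fromBlocks A 0 0 B) = vnEntropy A + vnEntropy B := by
  have hH : (fromBlocks A 0 0 B).IsHermitian := IsHermitian.fromBlocks hA (by simp) hB
  rw [ent_of_charpoly hH (Sum.elim hA.eigenvalues hB.eigenvalues),
    ent_of_charpoly hA hA.eigenvalues hA.charpoly_eq,
    ent_of_charpoly hB hB.eigenvalues hB.charpoly_eq, Fintype.sum_sum_type]
  · simp
  · rw [charpoly_fromBlocks_zero₁₂, Fintype.prod_sum_type, hA.charpoly_eq, hB.charpoly_eq]
    simp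

lemma ent_smul {A : Matrix n n ℂ} (hA : A.IsHermitian) (c : ℝ) :
    vnEntropy ((c : ℂ) • A) = c * vnEntropy A + Real.negMulLog c * A.trace.re := by
  obtain ⟨U, hU, h⟩ := exists_sp hA
  set f := hA.eigenvalues
  rw [h, ← sp_smul, ent_sp hU, ent_sp hU, trace_sp hU, Complex.ofReal_re, Finset.mul_sum,
    Finset.mul_sum, ← Finset.sum_add_distrib]
  refine Finset.sum_congr rfl fun i _ => ?_
  rw [Real.negMulLog_mul]; ring

lemma ent_zero : vnEntropy (0 : Matrix n n ℂ) = 0 := by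
  have := ent_smul (isHermitian_zero (n := n) (α := ℂ)) 0
  simpa using this

lemma ent_kron {A : Matrix n n ℂ} {B : Matrix m m ℂ} (hA : A.IsHermitian) (hB : B.IsHermitian) :
    vnEntropy (A ⊗ₖ B) = B.trace.re * vnEntropy A + A.trace.re * vnEntropy B := by
  obtain ⟨U, hU, h⟩ := exists_sp hA
  obtain ⟨V, hV, h'⟩ := exists_sp hB
  set f := hA.eigenvalues
  set g := hB.eigenvalues
  have e : sp U f ⊗ₖ sp V g = sp (U ⊗ₖ V) (fun p => f p.1 * g p.2) := by
    unfold sp dg
    rw [mul_kronecker_mul, mul_kronecker_mul, conjTranspose_kronecker, diagonal_kronecker_diagonal]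
    congr 3; ext p; simp
  have hUV : (U ⊗ₖ V)ᴴ * (U ⊗ₖ V) = 1 := by
    rw [conjTranspose_kronecker, ← mul_kronecker_mul, hU, hV, one_kronecker_one]
  rw [h, h', e, ent_sp hUV, ent_sp hU, ent_sp hV, trace_sp hU, trace_sp hV, Complex.ofReal_re,
    Complex.ofReal_re, Fintype.sum_prod_type]
  simp only [Real.negMulLog_mul, Finset.sum_add_distrib, ← Finset.sum_mul, ← Finset.mul_sum]

lemma exists_sqrt {A : Matrix n n ℂ} (hA : A.PosSemidef) : ∃ M : Matrix n n ℂ, A = M * Mᴴ := by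
  obtain ⟨U, f, -, hf, h⟩ := exists_sp_psd hA
  refine ⟨U * dg (fun i => Real.sqrt (f i)), ?_⟩
  rw [h, conjTranspose_mul, (dg_herm _).eq]
  unfold sp dg
  simp only [Matrix.mul_assoc]
  congr 1
  rw [← Matrix.mul_assoc, diagonal_mul_diagonal]
  congr 2; ext i
  rw [← Complex.ofReal_mul, Real.mul_self_sqrt (hf i)]

end Crest.Agent.R341
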